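import Vale.Agent.P171.Main

namespace Vale.Agent.P171

open Set MeasureTheory Finset Filter Topology
open scoped ENNReal Nat

lemma kac_bound {ψ : ℝ → ℝ} (h : Nice ψ) {μ k t η F P : ℝ} {l : ℕ} (hl : 1 ≤ l) (hk : 0 < k)
    (ht : 0 < t) (hη : 0 < η) (hF : 0 ≤ F) (hP : P = Real.exp (μ + hh))
    (hθ : η + 27 * (9261 * t / 2) ≤ 1 / 2)
    (hθP : (η + 27 * (9261 * t / 2)) * P ≤ k / 800000) (hηP : η * P ≤ t / 10 ^ 7)
    (h1 : lz l (En μ ψ) ≤ (F + t / 10 ^ 7) * (l : ℝ) ^ 3)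
    (h2 : lz l (En (μ + k) ψ) ≤ (F + 7 * k / 400000) * (l : ℝ) ^ 3) :
    Bd (box l) (fun N x => En μ ψ N x + η * S N x + 9261 * t / 2 / (l : ℝ) ^ 3 * (N : ℝ) ^ 2)
      (Real.log 2 + (F + 21 * t / 10 ^ 7) * (l : ℝ) ^ 3) := by
  have hl0 : (0 : ℝ) < l := by exact_mod_cast hl
  set V := (l : ℝ) ^ 3 with hV
  have hV0 : 0 < V := by positivity
  set s := 9261 * t / 2 with hs
  have hs0 : 0 < s := by positivity
  set θ := η + 27 * s with hθd
  have hθ0 : 0 < θ := by positivity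
  have b0 := Bd_En h.good le_rfl μ hl0.le
  have bk := Bd_En h.good le_rfl (μ + k) hl0.le
  have bs := Bd_stab h.good le_rfl μ hl0.le
  rw [← hP, ← hV] at bs
  have m0 := meas_En μ h.good.meas
  have mk := meas_En (μ + k) h.good.meas
  have ms := meas_EnS μ h.good.meas
  have b1 := Bd_holder (meas_box l) (θ := η) (c := 4 * s / 10 ^ 10 * V)
    (H := fun N x => (1 - η) * En μ ψ N x + η * (En μ ψ N x + S N x) + 4 * s / 10 ^ 10 * V)
    m0 ms ((Bd_lz (En_zero _ _) b0).mono h1) bs hη.le (by linarith) (fun _ _ _ => le_rfl)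
  have b2 := Bd_holder (meas_box l) (θ := θ) (c := -((1 - θ) * (2 * k / 100000 * V)))
    (H := fun N x => (1 - θ) * En (μ + k) ψ N x + θ * (En μ ψ N x + S N x)
      + -((1 - θ) * (2 * k / 100000 * V)))
    mk ms ((Bd_lz (En_zero _ _) bk).mono h2) bs hθ0.le (by linarith) (fun _ _ _ => le_rfl)
  have c1 : (1 - η) * ((F + t / 10 ^ 7) * V) + η * (P * V) + 4 * s / 10 ^ 10 * V ≤
      (F + 21 * t / 10 ^ 7) * V := by
    have : (1 - η) * (F + t / 10 ^ 7) + η * P + 4 * s / 10 ^ 10 ≤ F + 21 * t / 10 ^ 7 := by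
      have : 0 ≤ η * (F + t / 10 ^ 7) := by positivity
      rw [hs]
      linarith
    nlinarith
  have c2 : (1 - θ) * ((F + 7 * k / 400000) * V) + θ * (P * V)
      + -((1 - θ) * (2 * k / 100000 * V)) ≤ (F + 21 * t / 10 ^ 7) * V := by
    have : (1 - θ) * (F + 7 * k / 400000) + θ * P - (1 - θ) * (2 * k / 100000) ≤
        F + 21 * t / 10 ^ 7 := by
      have : 0 ≤ θ * F := by positivity
      have : θ * k ≤ 1 / 2 * k := mul_le_mul_of_nonneg_right hθ hk.le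
      nlinarith
    nlinarith
  have m1 : Meas (fun N x => (1 - η) * En μ ψ N x + η * (En μ ψ N x + S N x)
      + 4 * s / 10 ^ 10 * V) :=
    fun N => (((m0 N).const_mul _).add ((ms N).const_mul _)).add_const _
  have m2 : Meas (fun N x => (1 - θ) * En (μ + k) ψ N x + θ * (En μ ψ N x + S N x)
      + -((1 - θ) * (2 * k / 100000 * V))) :=
    fun N => (((mk N).const_mul _).add ((ms N).const_mul _)).add_const _
  refine Bd_two (meas_box l) m1 m2 (b1.mono c1) (b2.mono c2)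
    zero_le_one zero_le_one (le_of_eq ?_) fun N x hx => ?_
  · rw [Real.exp_add, Real.exp_log two_pos]; ring
  · rw [one_mul, one_mul]
    rcases le_total (N : ℝ) (2 / 100000 * V) with hN | hN
    · refine le_add_of_le_of_nonneg (Real.exp_le_exp.2 ?_) (Real.exp_pos _).le
      have a1 : (N : ℝ) ^ 2 ≤ (2 / 100000 * V) ^ 2 := pow_le_pow_left₀ (by positivity) hN 2
      have a2 : s / V * (N : ℝ) ^ 2 ≤ 4 * s / 10 ^ 10 * V :=
        (mul_le_mul_of_nonneg_left a1 (by positivity)).trans (le_of_eq (by field_simp; ring))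
      linarith
    · refine le_add_of_nonneg_of_le (Real.exp_pos _).le (Real.exp_le_exp.2 ?_)
      have a1 := sq_le_S hl hx
      have a2 : s / V * (N : ℝ) ^ 2 ≤ 27 * s * S N x :=
        (mul_le_mul_of_nonneg_left a1 (by positivity)).trans (le_of_eq (by rw [← hV]; field_simp))
      have a3 : En (μ + k) ψ N x = En μ ψ N x + k * N := by rw [En_eq, En_eq]; ring
      have a4 : (1 - θ) * (k * (2 / 100000 * V)) ≤ (1 - θ) * (k * N) :=
        mul_le_mul_of_nonneg_left (mul_le_mul_of_nonneg_left hN hk.le) (by linarith)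
      rw [a3]
      have a5 : θ * S N x = η * S N x + 27 * s * S N x := by rw [hθd]; ring
      nlinarith

theorem not_diff {ψ : ℝ → ℝ} (h : Nice ψ) (ha : Antitone ψ) (h2 : gg ψ ≤ 2)
    (hmax : ∀ t, 0 < t → t ≤ 1 → ∀ n, 1 ≤ n → Nice (fun r => ψ r + t * psi n r) ∧
      gg ψ + t / 400000 ≤ gg fun r => ψ r + t * psi n r) :
    ¬ Differentiable ℝ fun μ => pr μ ψ := by
  intro hd
  have hG : ∀ μ, HasDerivAt (fun μ => pr μ ψ - μ / 100000)
      (deriv (fun μ => pr μ ψ) μ - 1 / 100000) μ :=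
    fun μ => (hd μ).hasDerivAt.fun_sub ((hasDerivAt_id μ).div_const 100000)
  obtain ⟨μ, hμ, hmin⟩ := (isCompact_Icc (a := (-300000 : ℝ)) (b := 300000)).exists_isMinOn
    ⟨0, by norm_num⟩ (f := fun μ => pr μ ψ - μ / 100000)
    (fun μ _ => (hG μ).continuousAt.continuousWithinAt)
  have h3 : pr μ ψ - μ / 100000 ≤ gg ψ := le_gg fun ν hν => hmin hν
  have hF := pr_nonneg h μ
  have h4 := trial h ha (tr_zero h.good.nonneg) μ
  have h5 : Set.Icc (-300000 : ℝ) 300000 ∈ 𝓝 μ := Icc_mem_nhds (by linarith) (by linarith)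
  have h6 := (hmin.isLocalMin h5).hasDerivAt_eq_zero (hG μ)
  have h7 := (hd μ).hasDerivAt.tendsto_slope_zero_right
  obtain ⟨k, hk1, hk⟩ := ((h7.eventually (gt_mem_nhds (show deriv (fun μ => pr μ ψ) μ < 3 / 200000 by
    linarith))).and self_mem_nhdsWithin).exists
  have hk0 : 0 < k := hk
  have hk2 : pr (μ + k) ψ < pr μ ψ + 7 * k / 400000 := by
    rw [smul_eq_mul, inv_mul_lt_iff₀ hk0] at hk1
    linarith
  set F := pr μ ψ with hFd
  set P := Real.exp (μ + hh) with hP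
  have hP0 : 0 < P := Real.exp_pos _
  set δ := min (1 / 2) (k / 800000 / P) with hδ
  have hδ0 : 0 < δ := lt_min (by norm_num) (by positivity)
  have hδ1 : δ ≤ 1 / 2 := min_le_left _ _
  have hδP : δ * P ≤ k / 800000 := (le_div_iff₀ hP0).1 (min_le_right _ _)
  set t := δ / (27 * 9261) with ht
  have ht0 : 0 < t := by positivity
  have ht1 : t ≤ 1 := by rw [ht]; linarith
  set η := min (δ / 2) (t / 10 ^ 7 / P) with hη
  have hη0 : 0 < η := lt_min (by positivity) (by positivity)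
  have hη1 : η ≤ δ / 2 := min_le_left _ _
  have hηP : η * P ≤ t / 10 ^ 7 := (le_div_iff₀ hP0).1 (min_le_right _ _)
  have hθ : η + 27 * (9261 * t / 2) ≤ δ := by rw [ht]; linarith
  have e1 := ((h.tends μ).comp tendsto_natCast_atTop_atTop).eventually
    (gt_mem_nhds (show F < F + t / 10 ^ 7 by linarith [show 0 < t / 10 ^ 7 by positivity]))
  have e2 := ((h.tends (μ + k)).comp tendsto_natCast_atTop_atTop).eventually (gt_mem_nhds hk2)
  have e3 := (tendsto_const_div_atTop_nhds_zero_nat (Real.log 2)).eventually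
    (gt_mem_nhds (show (0 : ℝ) < t / 10 ^ 7 by positivity))
  obtain ⟨l, a1, a2, a3, a4, hl⟩ :=
    (e1.and (e2.and (e3.and ((h.dec hη0).and (eventually_ge_atTop 1))))).exists
  have hl1 : (1 : ℝ) ≤ l := by exact_mod_cast hl
  have hV : 0 < (l : ℝ) ^ 3 := by positivity
  have b := kac_bound h hl hk0 ht0 hη0 hF hP (hθ.trans hδ1)
    ((mul_le_mul_of_nonneg_right hθ hP0.le).trans hδP) hηP
    ((div_lt_iff₀ hV).1 a1).le ((div_lt_iff₀ hV).1 a2).le
  have hlog : 0 < Real.log 2 := Real.log_pos one_lt_two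
  have b2 := a4 μ t _ ht0.le (by positivity) b (t / 10 ^ 7) (by positivity)
  obtain ⟨n1, n2⟩ := hmax t ht0 ht1 l hl
  have b3 := le_of_tendsto (n1.tends μ) b2
  have b4 := gg_le n1 hμ
  have b5 : Real.log 2 / (l : ℝ) ^ 3 ≤ Real.log 2 / l :=
    div_le_div_of_nonneg_left hlog.le (by positivity) (le_self_pow₀ hl1 (by norm_num))
  rw [add_div, mul_div_cancel_right₀ _ hV.ne'] at b3
  linarith

lemma Q_split (f : ℝ → ℝ) (N : ℕ) (x : Fin N → E) :
    Q (dd f) N x = 2 * (∑ i, ∑ j ∈ Finset.Ioi i, f (dist (x i) (x j))) + N * f 0 := by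
  have h1 : ∀ i, ∑ j ∈ Finset.Ioi i, f (dist (x i) (x j)) =
      ∑ j, if i < j then f (dist (x i) (x j)) else 0 := by
    intro i
    rw [← Finset.sum_filter]
    congr 1
    ext j; simp
  have h2 : ∑ i, ∑ j, (if i < j then f (dist (x i) (x j)) else 0) =
      ∑ i, ∑ j, (if j < i then f (dist (x i) (x j)) else 0) := by
    rw [Finset.sum_comm]
    simp only [dist_comm]
  have h3 : (N : ℝ) * f 0 = ∑ i : Fin N, ∑ j : Fin N, (if i = j then f 0 else 0) := by simp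
  simp only [h1]
  rw [two_mul, h3]
  nth_rewrite 2 [h2]
  simp only [← Finset.sum_add_distrib, Q, dd]
  refine Finset.sum_congr rfl fun i _ => Finset.sum_congr rfl fun j _ => ?_
  rcases lt_trichotomy i j with h | h | h
  · simp [h, h.ne, h.not_gt]
  · simp [h]
  · simp [h, h.ne', h.not_gt]

noncomputable def pot (ψ : ℝ → ℝ) (r : ℝ) : ℝ := 2 * hh * rep r - ψ r

lemma energy_eq (ψ : ℝ → ℝ) (μ : ℝ) (N : ℕ) (x : Fin N → E) :
    En μ ψ N x = N * (μ + ψ 0 / 2) - ∑ i, ∑ j ∈ Finset.Ioi i, pot ψ (dist (x i) (x j)) := by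
  have h1 := Q_split (pot ψ) N x
  have h2 : Q (dd (pot ψ)) N x = 2 * hh * Q (dd rep) N x + (-1) * Q (dd ψ) N x := by
    rw [← Q_mul, ← Q_mul, ← Q_add]
    simp only [Q, dd, pot]
    simp [sub_eq_add_neg]
  have h3 : pot ψ 0 = 2 * hh - ψ 0 := by simp [pot, rep]
  rw [En_eq]
  rw [h3, h2] at h1
  linarith

lemma Z_ne_top {ψ : ℝ → ℝ} (h : Nice ψ) (μ : ℝ) {L : ℝ} (hL : 0 ≤ L) :
    Z (box L) (En μ ψ) ≠ ⊤ :=
  ne_top_of_le_ne_top ENNReal.ofReal_ne_top (Bd_En h.good le_rfl μ hL)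

lemma bridge_term {ψ : ℝ → ℝ} (h : Nice ψ) {z : ℝ} (hz : 0 < z) (L : ℝ) (N : ℕ) :
    z ^ N * (1 / (N ! : ℝ) * ∫ x in Set.univ.pi (fun _ : Fin N => box L),
      Real.exp (-1 * ∑ i, ∑ j ∈ Finset.Ioi i, pot ψ (dist (x i) (x j)))) =
      (J (box L) (En (Real.log z - ψ 0 / 2) ψ) N / N !).toReal := by
  rw [ENNReal.toReal_div, J, ← integral_eq_lintegral_of_nonneg_ae
    (Eventually.of_forall fun x => (Real.exp_pos _).le)
    (meas_En _ h.good.meas N).exp.aestronglyMeasurable, mul_left_comm, ← integral_const_mul]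
  simp only [ENNReal.toReal_natCast]
  rw [one_div, mul_comm, ← div_eq_mul_inv]
  congr 2
  funext x
  rw [energy_eq, sub_add_cancel, Real.exp_sub, Real.exp_nat_mul, Real.exp_log hz, neg_one_mul,
    Real.exp_neg, div_eq_mul_inv]

lemma bridge {ψ : ℝ → ℝ} (h : Nice ψ) {z : ℝ} (hz : 0 < z) {L : ℝ} (hL : 0 ≤ L) :
    ∑' N : ℕ, z ^ N * (1 / (N ! : ℝ) * ∫ x in Set.univ.pi (fun _ : Fin N => box L),
      Real.exp (-1 * ∑ i, ∑ j ∈ Finset.Ioi i, pot ψ (dist (x i) (x j)))) =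
      (Z (box L) (En (Real.log z - ψ 0 / 2) ψ)).toReal := by
  have hfin := Z_ne_top h (Real.log z - ψ 0 / 2) hL
  rw [Z, ENNReal.tsum_toReal_eq fun N => ne_top_of_le_ne_top hfin (ENNReal.le_tsum N)]
  exact tsum_congr fun N => bridge_term h hz L N

lemma bridge_summable {ψ : ℝ → ℝ} (h : Nice ψ) {z : ℝ} (hz : 0 < z) {L : ℝ} (hL : 0 ≤ L) :
    Summable fun N : ℕ => z ^ N * (1 / (N ! : ℝ) * ∫ x in Set.univ.pi (fun _ : Fin N => box L),
      Real.exp (-1 * ∑ i, ∑ j ∈ Finset.Ioi i, pot ψ (dist (x i) (x j)))) :=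
  (ENNReal.summable_toReal (Z_ne_top h (Real.log z - ψ 0 / 2) hL)).congr
    fun N => (bridge_term h hz L N).symm

lemma bridge_integrable {ψ : ℝ → ℝ} (h : Nice ψ) {L : ℝ} (hL : 0 ≤ L) (N : ℕ) :
    IntegrableOn (fun x : Fin N → E =>
      Real.exp (-1 * ∑ i, ∑ j ∈ Finset.Ioi i, pot ψ (dist (x i) (x j))))
      (Set.univ.pi fun _ : Fin N => box L) := by
  have hfin := Z_ne_top h (-(ψ 0 / 2)) hL
  have h1 : J (box L) (En (-(ψ 0 / 2)) ψ) N / N ! ≠ ⊤ :=
    ne_top_of_le_ne_top hfin (ENNReal.le_tsum N)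
  have h2 : J (box L) (En (-(ψ 0 / 2)) ψ) N ≠ ⊤ := by
    intro h2
    rw [h2, ENNReal.top_div_of_ne_top (ENNReal.natCast_ne_top _)] at h1
    exact h1 rfl
  have h3 : (fun x : Fin N → E =>
      Real.exp (-1 * ∑ i, ∑ j ∈ Finset.Ioi i, pot ψ (dist (x i) (x j)))) =
      fun x => Real.exp (En (-(ψ 0 / 2)) ψ N x) := by
    funext x
    rw [energy_eq]
    simp
  rw [h3]
  refine ⟨(meas_En _ h.good.meas N).exp.aestronglyMeasurable, ?_⟩
  rw [hasFiniteIntegral_iff_ofReal (Eventually.of_forall fun x => (Real.exp_pos _).le)]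
  exact lt_top_iff_ne_top.2 h2

end Vale.Agent.P171
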