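import Mathlib

namespace Vale.Agent.P171

open Set MeasureTheory Finset
open scoped ENNReal Nat

abbrev E : Type := EuclideanSpace ℝ (Fin 3)

abbrev Fam : Type := (N : ℕ) → (Fin N → E) → ℝ

def Meas (H : Fam) : Prop := ∀ N, Measurable (H N)

noncomputable def J (Λ : Set E) (H : Fam) (N : ℕ) : ℝ≥0∞ :=
  ∫⁻ x in Set.univ.pi (fun _ : Fin N => Λ), ENNReal.ofReal (Real.exp (H N x))

noncomputable def Z (Λ : Set E) (H : Fam) : ℝ≥0∞ := ∑' N, J Λ H N / N !

def Q (v : E → E → ℝ) : Fam := fun _ x => ∑ i, ∑ j, v (x i) (x j)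

def PE (u : E → ℝ) (v : E → E → ℝ) : Fam := fun N x => ∑ i, u (x i) + Q v N x

lemma meas_Q {v : E → E → ℝ} (hv : Measurable (Function.uncurry v)) : Meas (Q v) := by
  intro N
  unfold Q
  refine Finset.measurable_sum _ fun i _ => Finset.measurable_sum _ fun j _ => ?_
  exact hv.comp (f := fun x : Fin N → E => (x i, x j))
    ((measurable_pi_apply i).prodMk (measurable_pi_apply j))

lemma meas_PE {u : E → ℝ} {v : E → E → ℝ} (hu : Measurable u)
    (hv : Measurable (Function.uncurry v)) : Meas (PE u v) := fun N =>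
  (Finset.measurable_sum _ fun i _ => hu.comp (measurable_pi_apply i)).add (meas_Q hv N)

lemma mset {Λ : Set E} (hΛ : MeasurableSet Λ) (N : ℕ) :
    MeasurableSet (Set.univ.pi (fun _ : Fin N => Λ)) := MeasurableSet.univ_pi fun _ => hΛ

lemma J_mono {Λ Λ' : Set E} (hΛ : MeasurableSet Λ) (h : Λ ⊆ Λ') {H H' : Fam} {N : ℕ}
    (hH : ∀ x : Fin N → E, (∀ i, x i ∈ Λ) → H N x ≤ H' N x) : J Λ H N ≤ J Λ' H' N := by
  unfold J
  refine le_trans (setLIntegral_mono' (mset hΛ N) fun x hx => ?_)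
    (lintegral_mono_set (Set.pi_mono fun _ _ => h))
  exact ENNReal.ofReal_le_ofReal (Real.exp_le_exp.2 (hH x fun i => hx i trivial))

lemma Z_mono {Λ Λ' : Set E} (hΛ : MeasurableSet Λ) (h : Λ ⊆ Λ') {H H' : Fam}
    (hH : ∀ N (x : Fin N → E), (∀ i, x i ∈ Λ) → H N x ≤ H' N x) : Z Λ H ≤ Z Λ' H' :=
  ENNReal.tsum_le_tsum fun N => ENNReal.div_le_div_right (J_mono hΛ h (hH N)) _

lemma Z_sum {ι : Type} (s : Finset ι) {Λ : Set E} (hΛ : MeasurableSet Λ) {H : Fam}
    (c : ι → ℝ) (hc : ∀ k, 0 ≤ c k) (G : ι → Fam) (hG : ∀ k, Meas (G k))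
    (hH : ∀ N (x : Fin N → E), (∀ i, x i ∈ Λ) →
      Real.exp (H N x) ≤ ∑ k ∈ s, c k * Real.exp (G k N x)) :
    Z Λ H ≤ ∑ k ∈ s, ENNReal.ofReal (c k) * Z Λ (G k) := by
  have h1 : ∀ N, J Λ H N ≤ ∑ k ∈ s, ENNReal.ofReal (c k) * J Λ (G k) N := by
    intro N
    have hm : ∀ k, Measurable fun x => ENNReal.ofReal (Real.exp (G k N x)) :=
      fun k => (hG k N).exp.ennreal_ofReal
    unfold J
    simp_rw [← lintegral_const_mul _ (hm _)]
    rw [← lintegral_finsetSum _ fun k _ => (hm k).const_mul _]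
    refine setLIntegral_mono' (mset hΛ N) fun x hx => ?_
    refine (ENNReal.ofReal_le_ofReal (hH N x fun i => hx i trivial)).trans (le_of_eq ?_)
    rw [ENNReal.ofReal_sum_of_nonneg fun k _ => mul_nonneg (hc k) (Real.exp_pos _).le]
    exact Finset.sum_congr rfl fun k _ => ENNReal.ofReal_mul (hc k)
  unfold Z
  simp_rw [← ENNReal.tsum_mul_left]
  rw [← Summable.tsum_finsetSum fun _ _ => ENNReal.summable]
  refine ENNReal.tsum_le_tsum fun N => (ENNReal.div_le_div_right (h1 N) _).trans (le_of_eq ?_)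
  simp only [div_eq_mul_inv, Finset.sum_mul, mul_assoc]

/-- logarithmic bound -/
def Bd (Λ : Set E) (H : Fam) (A : ℝ) : Prop := Z Λ H ≤ ENNReal.ofReal (Real.exp A)

lemma Bd.mono {Λ : Set E} {H : Fam} {A B : ℝ} (h : Bd Λ H A) (hAB : A ≤ B) : Bd Λ H B :=
  le_trans h (ENNReal.ofReal_le_ofReal (Real.exp_le_exp.2 hAB))

lemma Bd_two {Λ : Set E} (hΛ : MeasurableSet Λ) {H H1 H2 : Fam} {A1 A2 c1 c2 A : ℝ}
    (m1 : Meas H1) (m2 : Meas H2) (b1 : Bd Λ H1 A1) (b2 : Bd Λ H2 A2) (h1 : 0 ≤ c1) (h2 : 0 ≤ c2)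
    (hA : c1 * Real.exp A1 + c2 * Real.exp A2 ≤ Real.exp A)
    (hH : ∀ N (x : Fin N → E), (∀ i, x i ∈ Λ) →
      Real.exp (H N x) ≤ c1 * Real.exp (H1 N x) + c2 * Real.exp (H2 N x)) : Bd Λ H A := by
  have := Z_sum (Finset.univ : Finset (Fin 2)) hΛ (H := H) ![c1, c2]
    (fun k => by fin_cases k <;> simpa) ![H1, H2] (fun k => by fin_cases k <;> simpa)
    (fun N x hx => by simpa [Fin.sum_univ_two] using hH N x hx)
  refine this.trans ?_
  simp only [Fin.sum_univ_two, Matrix.cons_val_zero, Matrix.cons_val_one]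
  refine (add_le_add (mul_le_mul_right b1 _) (mul_le_mul_right b2 _)).trans ?_
  rw [← ENNReal.ofReal_mul h1, ← ENNReal.ofReal_mul h2,
    ← ENNReal.ofReal_add (by positivity) (by positivity)]
  exact ENNReal.ofReal_le_ofReal hA

lemma Bd_holder {Λ : Set E} (hΛ : MeasurableSet Λ) {H H1 H2 : Fam} {A1 A2 θ c : ℝ}
    (m1 : Meas H1) (m2 : Meas H2) (b1 : Bd Λ H1 A1) (b2 : Bd Λ H2 A2) (h0 : 0 ≤ θ) (h1 : θ ≤ 1)
    (hH : ∀ N (x : Fin N → E), (∀ i, x i ∈ Λ) →
      H N x ≤ (1 - θ) * H1 N x + θ * H2 N x + c) : Bd Λ H ((1 - θ) * A1 + θ * A2 + c) := by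
  set A := (1 - θ) * A1 + θ * A2 + c
  have h1' : 0 ≤ 1 - θ := by linarith
  refine Bd_two hΛ m1 m2 b1 b2 (c1 := (1 - θ) * Real.exp (A - A1)) (c2 := θ * Real.exp (A - A2))
    (by positivity) (by positivity) (le_of_eq ?_) fun N x hx => ?_
  · rw [mul_assoc, mul_assoc, ← Real.exp_add, ← Real.exp_add]
    simp only [sub_add_cancel]; ring
  · have := convexOn_exp.2 (Set.mem_univ (A - A1 + H1 N x)) (Set.mem_univ (A - A2 + H2 N x))
      h1' h0 (by ring)
    simp only [smul_eq_mul] at this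
    rw [mul_assoc, mul_assoc, ← Real.exp_add, ← Real.exp_add]
    refine le_trans (Real.exp_le_exp.2 ?_) this
    have := hH N x hx
    simp only [A]
    nlinarith

lemma one_le_Z (Λ : Set E) {H : Fam} (h : ∀ x, H 0 x = 0) : 1 ≤ Z Λ H := by
  refine le_trans ?_ (ENNReal.le_tsum 0)
  simp [J, h, volume_pi]

lemma Bd_ideal {Λ : Set E} (hΛ : MeasurableSet Λ) {H : Fam} {b V : ℝ} (hV : 0 ≤ V)
    (hvol : volume Λ ≤ ENNReal.ofReal V)
    (hH : ∀ N (x : Fin N → E), (∀ i, x i ∈ Λ) → H N x ≤ b * N) : Bd Λ H (Real.exp b * V) := by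
  have h1 : ∀ N, J Λ H N / N ! ≤ ENNReal.ofReal ((Real.exp b * V) ^ N / N !) := by
    intro N
    rw [ENNReal.ofReal_div_of_pos (by positivity), ENNReal.ofReal_natCast]
    refine ENNReal.div_le_div_right ?_ _
    refine (J_mono (H' := fun N _ => b * N) hΛ subset_rfl (hH N)).trans ?_
    simp only [J, setLIntegral_const, volume_pi, Measure.pi_pi, Finset.prod_const,
      Finset.card_univ, Fintype.card_fin]
    rw [mul_pow, ENNReal.ofReal_mul (by positivity), ← Real.exp_nat_mul, mul_comm (N : ℝ) b,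
      ENNReal.ofReal_pow hV]
    gcongr
  refine (ENNReal.tsum_le_tsum h1).trans (le_of_eq ?_)
  rw [← ENNReal.ofReal_tsum_of_nonneg (fun N => by positivity) (Real.summable_pow_div_factorial _)]
  congr 1
  rw [Real.exp_eq_exp_ℝ, NormedSpace.exp_eq_tsum_div]

lemma PE_cons (u : E → ℝ) (v : E → E → ℝ) (N : ℕ) (y : E) (x : Fin N → E) :
    PE u v (N + 1) (Fin.cons y x) =
      u y + v y y + PE (fun w => u w + v y w + v w y) v N x := by
  simp only [PE, Q, Fin.sum_univ_succ, Fin.cons_zero, Fin.cons_succ, Finset.sum_add_distrib]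
  ring

lemma meas_shift {u : E → ℝ} {v : E → E → ℝ} (hu : Measurable u)
    (hv : Measurable (Function.uncurry v)) (y : E) : Measurable fun w => u w + v y w + v w y :=
  (hu.add (hv.comp (measurable_const.prodMk measurable_id))).add
    (hv.comp (measurable_id.prodMk measurable_const))

lemma meas_joint {u : E → ℝ} {v : E → E → ℝ} (hu : Measurable u)
    (hv : Measurable (Function.uncurry v)) (N : ℕ) :
    Measurable fun z : E × (Fin N → E) =>
      ENNReal.ofReal (Real.exp (PE (fun w => u w + v z.1 w + v w z.1) v N z.2)) := by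
  refine Measurable.ennreal_ofReal (Measurable.exp ?_)
  unfold PE
  refine Measurable.add (Finset.measurable_sum _ fun i _ => ?_) ((meas_Q hv N).comp measurable_snd)
  have h1 : Measurable fun z : E × (Fin N → E) => z.2 i :=
    (measurable_pi_apply i).comp measurable_snd
  exact ((hu.comp h1).add (hv.comp (measurable_fst.prodMk h1))).add
    (hv.comp (h1.prodMk measurable_fst))

lemma meas_Jshift (Λ : Set E) {u : E → ℝ} {v : E → E → ℝ} (hu : Measurable u)
    (hv : Measurable (Function.uncurry v)) (N : ℕ) :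
    Measurable fun y => J Λ (PE (fun w => u w + v y w + v w y) v) N :=
  (meas_joint hu hv N).lintegral_prod_right'

lemma meas_diag {u : E → ℝ} {v : E → E → ℝ} (hu : Measurable u)
    (hv : Measurable (Function.uncurry v)) :
    Measurable fun y => ENNReal.ofReal (Real.exp (u y + v y y)) :=
  (hu.add (hv.comp (measurable_id.prodMk measurable_id))).exp.ennreal_ofReal

lemma J_succ (Λ : Set E) {u : E → ℝ} {v : E → E → ℝ} (hu : Measurable u)
    (hv : Measurable (Function.uncurry v)) (N : ℕ) :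
    J Λ (PE u v) (N + 1) = ∫⁻ y in Λ, ENNReal.ofReal (Real.exp (u y + v y y)) *
      J Λ (PE (fun w => u w + v y w + v w y) v) N := by
  unfold J
  rw [volume_pi, Measure.restrict_pi_pi, volume_pi, Measure.restrict_pi_pi]
  have hp := (measurePreserving_piFinSuccAbove
    (fun _ : Fin (N + 1) => (volume : Measure E).restrict Λ) 0).symm
  rw [← hp.lintegral_comp_emb (MeasurableEquiv.measurableEmbedding _), lintegral_prod]
  · refine lintegral_congr fun y => ?_
    rw [← lintegral_const_mul' _ _ ENNReal.ofReal_ne_top]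
    refine lintegral_congr fun x => ?_
    have : (MeasurableEquiv.piFinSuccAbove (fun _ : Fin (N + 1) => E) 0).symm (y, x)
        = Fin.cons y x := by
      simp [MeasurableEquiv.piFinSuccAbove, Fin.insertNthEquiv]
    rw [this, PE_cons, Real.exp_add, ENNReal.ofReal_mul (Real.exp_pos _).le]
  · exact (((meas_PE hu hv (N + 1)).comp (MeasurableEquiv.measurable _)).exp.ennreal_ofReal).aemeasurable

lemma J_zero (Λ : Set E) (u : E → ℝ) (v : E → E → ℝ) : J Λ (PE u v) 0 = 1 := by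
  simp [J, PE, Q, volume_pi]

lemma J_congr_u {Λ : Set E} (hΛ : MeasurableSet Λ) {u u' : E → ℝ} (v : E → E → ℝ) (N : ℕ)
    (h : ∀ w ∈ Λ, u w = u' w) : J Λ (PE u v) N = J Λ (PE u' v) N := by
  have : ∀ x : Fin N → E, (∀ i, x i ∈ Λ) → PE u v N x = PE u' v N x := fun x hx => by
    simp only [PE]
    rw [Finset.sum_congr rfl fun i _ => h _ (hx i)]
  exact le_antisymm (J_mono hΛ subset_rfl fun x hx => (this x hx).le)
    (J_mono hΛ subset_rfl fun x hx => (this x hx).ge)

lemma J_union {A B : Set E} (hA : MeasurableSet A) (hB : MeasurableSet B) (hAB : Disjoint A B)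
    {v : E → E → ℝ} (hv : Measurable (Function.uncurry v))
    (h0 : ∀ a ∈ A, ∀ b ∈ B, v a b = 0 ∧ v b a = 0) (N : ℕ) :
    ∀ u : E → ℝ, Measurable u → J (A ∪ B) (PE u v) N =
      ∑ ij ∈ antidiagonal N, (N.choose ij.1 : ℝ≥0∞) * (J B (PE u v) ij.1 * J A (PE u v) ij.2) := by
  induction N with
  | zero => intro u _; simp [J_zero]
  | succ N ih =>
    intro u hu
    rw [J_succ _ hu hv, lintegral_union hB hAB,
      Finset.sum_antidiagonal_choose_succ_mul (fun i j => J B (PE u v) i * J A (PE u v) j)]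
    congr 1
    · simp_rw [J_succ _ hu hv, ← mul_assoc]
      have hm : ∀ j, Measurable fun y => ENNReal.ofReal (Real.exp (u y + v y y)) *
          J A (PE (fun w => u w + v y w + v w y) v) j :=
        fun j => (meas_diag hu hv).mul (meas_Jshift A hu hv j)
      simp_rw [← lintegral_const_mul _ (hm _)]
      rw [← lintegral_finsetSum _ fun ij _ => (hm ij.2).const_mul _]
      refine setLIntegral_congr_fun hA fun y hy => ?_
      rw [ih _ (meas_shift hu hv y), Finset.mul_sum]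
      refine Finset.sum_congr rfl fun ij _ => ?_
      rw [J_congr_u hB (u' := u) v ij.1 fun w hw => by simp [h0 y hy w hw]]
      ring
    · simp_rw [J_succ _ hu hv, mul_comm _ (J A (PE u v) _), ← mul_assoc]
      have hm : ∀ j, Measurable fun y => ENNReal.ofReal (Real.exp (u y + v y y)) *
          J B (PE (fun w => u w + v y w + v w y) v) j :=
        fun j => (meas_diag hu hv).mul (meas_Jshift B hu hv j)
      simp_rw [← lintegral_const_mul _ (hm _)]
      rw [← lintegral_finsetSum _ fun ij _ => (hm ij.1).const_mul _]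
      refine setLIntegral_congr_fun hB fun y hy => ?_
      rw [ih _ (meas_shift hu hv y), Finset.mul_sum]
      refine Finset.sum_congr rfl fun ij hij => ?_
      rw [J_congr_u hA (u' := u) v ij.2 fun w hw => by simp [h0 w hw y hy],
        Nat.choose_symm_of_eq_add (Finset.HasAntidiagonal.mem_antidiagonal.1 hij).symm]
      ring

lemma cauchy_prod (f g : ℕ → ℝ≥0∞) :
    (∑' n, f n) * ∑' n, g n = ∑' n, ∑ kl ∈ antidiagonal n, f kl.1 * g kl.2 := by
  have h1 : (∑' n, f n) * ∑' n, g n = ∑' z : ℕ × ℕ, f z.1 * g z.2 := by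
    rw [ENNReal.tsum_prod', ← ENNReal.tsum_mul_right]
    simp_rw [ENNReal.tsum_mul_left]
  rw [h1, ← Finset.HasAntidiagonal.sigmaAntidiagonalEquivProd.tsum_eq, ENNReal.tsum_sigma']
  refine tsum_congr fun n => ?_
  rw [tsum_fintype]
  exact Finset.sum_finset_coe (fun kl : ℕ × ℕ => f kl.1 * g kl.2) (antidiagonal n)

lemma Z_union {A B : Set E} (hA : MeasurableSet A) (hB : MeasurableSet B) (hAB : Disjoint A B)
    {u : E → ℝ} {v : E → E → ℝ} (hu : Measurable u) (hv : Measurable (Function.uncurry v))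
    (h0 : ∀ a ∈ A, ∀ b ∈ B, v a b = 0 ∧ v b a = 0) :
    Z (A ∪ B) (PE u v) = Z B (PE u v) * Z A (PE u v) := by
  unfold Z
  rw [cauchy_prod]
  refine tsum_congr fun N => ?_
  rw [J_union hA hB hAB hv h0 N u hu, div_eq_mul_inv, Finset.sum_mul]
  refine Finset.sum_congr rfl fun ij hij => ?_
  have h1 := Finset.HasAntidiagonal.mem_antidiagonal.1 hij
  have h2 : (N ! : ℝ≥0∞) = N.choose ij.1 * (ij.1 ! * ij.2 !) := by
    rw [← h1, ← Nat.add_choose_mul_factorial_mul_factorial, Nat.choose_symm_add]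
    push_cast; ring
  have h3 : (N.choose ij.1 : ℝ≥0∞) ≠ 0 := by
    have : 0 < N.choose ij.1 := Nat.choose_pos (by omega)
    exact_mod_cast this.ne'
  have h4 : ∀ k : ℕ, (k ! : ℝ≥0∞) ≠ 0 := fun k => by exact_mod_cast k.factorial_ne_zero
  rw [h2, ENNReal.mul_inv (Or.inl h3) (Or.inl (by simp)),
    ENNReal.mul_inv (Or.inl (h4 _)) (Or.inl (by simp)), div_eq_mul_inv, div_eq_mul_inv]
  have h5 : (N.choose ij.1 : ℝ≥0∞) * (N.choose ij.1 : ℝ≥0∞)⁻¹ = 1 :=
    ENNReal.mul_inv_cancel h3 (by simp)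
  calc _ = ((N.choose ij.1 : ℝ≥0∞) * (N.choose ij.1 : ℝ≥0∞)⁻¹) * (J B (PE u v) ij.1 * (ij.1 ! : ℝ≥0∞)⁻¹ *
      (J A (PE u v) ij.2 * (ij.2 ! : ℝ≥0∞)⁻¹)) := by ring
    _ = _ := by rw [h5, one_mul]

lemma Z_fibers {ι : Type} [DecidableEq ι] (f : E → ι) (hf : ∀ q, MeasurableSet (f ⁻¹' {q}))
    {u : E → ℝ} {v : E → E → ℝ} (hu : Measurable u) (hv : Measurable (Function.uncurry v))
    (h0 : ∀ a b, f a ≠ f b → v a b = 0) (T : Finset ι) :
    Z (f ⁻¹' T) (PE u v) = ∏ q ∈ T, Z (f ⁻¹' {q}) (PE u v) := by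
  have hm : ∀ T : Finset ι, MeasurableSet (f ⁻¹' T) := fun T => by
    have : f ⁻¹' T = ⋃ q ∈ T, f ⁻¹' {q} := by ext x; simp
    rw [this]
    exact Finset.measurableSet_biUnion _ fun q _ => hf q
  induction T using Finset.induction_on with
  | empty =>
    simp only [Finset.coe_empty, Set.preimage_empty, Finset.prod_empty, Z]
    rw [tsum_eq_single 0]
    · simp [J_zero]
    · intro N hN
      obtain ⟨N, rfl⟩ := Nat.exists_eq_succ_of_ne_zero hN
      simp [J_succ _ hu hv]
  | insert q T hq ih =>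
    have : f ⁻¹' (insert q T : Finset ι) = f ⁻¹' T ∪ f ⁻¹' {q} := by
      ext x; simp [or_comm]
    rw [this, Z_union (hm T) (hf q) ?_ hu hv ?_, ih, Finset.prod_insert hq]
    · rw [Set.disjoint_left]
      intro a ha hb
      have hb' : f a = q := hb
      exact hq (hb' ▸ ha)
    · intro a ha b hb
      have hb' : f b = q := hb
      have : f a ≠ f b := fun h => hq (hb' ▸ h ▸ ha)
      exact ⟨h0 a b this, h0 b a this.symm⟩

lemma Z_translate (Λ : Set E) (c : E) (H : Fam) :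
    Z ((fun x => x + c) ⁻¹' Λ) (fun N x => H N fun i => x i + c) = Z Λ H := by
  unfold Z J
  refine tsum_congr fun N => ?_
  congr 1
  have hp : MeasurePreserving (MeasurableEquiv.addRight (fun _ : Fin N => c))
      (volume : Measure (Fin N → E)) volume := measurePreserving_add_right _ _
  exact hp.setLIntegral_comp_preimage_emb (MeasurableEquiv.measurableEmbedding _)
    (fun x => ENNReal.ofReal (Real.exp (H N x))) (Set.univ.pi fun _ => Λ)

lemma J_trial {ι : Type} [DecidableEq ι] (C : ι → Set E) (hC : ∀ t, MeasurableSet (C t))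
    (hvol : ∀ t, 1 ≤ volume (C t)) (hdis : ∀ s t, s ≠ t → Disjoint (C s) (C t))
    {Λ : Set E} {v : E → E → ℝ} (hv : Measurable (Function.uncurry v)) (γ : ι → ι → ℝ)
    (hγ : ∀ s t, s ≠ t → ∀ x ∈ C s, ∀ y ∈ C t, γ s t ≤ v x y)
    (hγ' : ∀ t, ∀ x ∈ C t, γ t t ≤ v x x) (N : ℕ) :
    ∀ (T : Finset ι) (u : E → ℝ) (α : ι → ℝ), T.card = N → Measurable u →
      (∀ t ∈ T, C t ⊆ Λ) → (∀ t ∈ T, ∀ x ∈ C t, α t ≤ u x) →
      (N ! : ℝ≥0∞) * ENNReal.ofReal (Real.exp (∑ t ∈ T, α t + ∑ s ∈ T, ∑ t ∈ T, γ s t)) ≤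
        J Λ (PE u v) N := by
  induction N with
  | zero =>
    intro T u α hT _ _ _
    rw [Finset.card_eq_zero.1 hT, J_zero]
    simp
  | succ N ih =>
    intro T u α hT hu hsub hα
    rw [J_succ _ hu hv]
    refine le_trans ?_ (lintegral_mono_set (s := ⋃ t ∈ T, C t) (by simpa using hsub))
    rw [lintegral_biUnion_finset (fun s _ t _ h => hdis s t h) fun t _ => hC t]
    have key : ∀ t ∈ T, (N ! : ℝ≥0∞) *
        ENNReal.ofReal (Real.exp (∑ t ∈ T, α t + ∑ s ∈ T, ∑ t ∈ T, γ s t)) ≤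
        ∫⁻ y in C t, ENNReal.ofReal (Real.exp (u y + v y y)) *
          J Λ (PE (fun w => u w + v y w + v w y) v) N := by
      intro t ht
      refine le_trans ?_ (setLIntegral_mono' (hC t) (f := fun _ => (N ! : ℝ≥0∞) *
        ENNReal.ofReal (Real.exp (∑ t ∈ T, α t + ∑ s ∈ T, ∑ t ∈ T, γ s t))) fun y hy => ?_)
      · rw [setLIntegral_const]
        exact le_mul_of_one_le_right' (hvol t)
      · have h1 := ih (T.erase t) _ (fun s => α s + γ t s + γ s t)
          (by rw [Finset.card_erase_of_mem ht, hT]; rfl) (meas_shift hu hv y)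
          (fun s hs => hsub s (Finset.mem_of_mem_erase hs)) (fun s hs x hx => by
            have hne := Finset.ne_of_mem_erase hs
            exact add_le_add (add_le_add (hα s (Finset.mem_of_mem_erase hs) x hx)
              (hγ t s hne.symm y hy x hx)) (hγ s t hne x hx y hy))
        refine le_trans ?_ (mul_le_mul_right h1 _)
        rw [mul_left_comm, ← ENNReal.ofReal_mul (Real.exp_pos _).le, ← Real.exp_add]
        refine mul_le_mul_right (ENNReal.ofReal_le_ofReal (Real.exp_le_exp.2 ?_)) _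
        have e1 := Finset.add_sum_erase T α ht
        have e2 := Finset.add_sum_erase T (fun s => ∑ t ∈ T, γ s t) ht
        have e3 := Finset.add_sum_erase T (γ t) ht
        have e4 : ∑ s ∈ T.erase t, ∑ r ∈ T, γ s r =
            ∑ s ∈ T.erase t, γ s t + ∑ s ∈ T.erase t, ∑ r ∈ T.erase t, γ s r := by
          rw [← Finset.sum_add_distrib]
          exact Finset.sum_congr rfl fun s _ => (Finset.add_sum_erase T (γ s) ht).symm
        have := hα t ht y hy
        have := hγ' t y hy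
        simp only [Finset.sum_add_distrib] at e2 ⊢
        linarith
    refine le_trans (le_of_eq ?_) (Finset.sum_le_sum key)
    rw [Finset.sum_const, hT, Nat.factorial_succ, nsmul_eq_mul]
    push_cast; ring

end Vale.Agent.P171
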