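import Vale.Agent.P171.Gas

namespace Vale.Agent.P171

open Set MeasureTheory Finset
open scoped ENNReal Nat

abbrev G3 : Type := Fin 3 → ℤ

noncomputable def cell (x : E) : G3 := fun i => ⌊x i⌋

def same (f : E → G3) (x y : E) : ℝ := if f x = f y then 1 else 0

noncomputable def S : Fam := Q (same cell)

def box (L : ℝ) : Set E := {x | ∀ i, x i ∈ Set.Icc 0 L}

noncomputable def psi (n : ℕ) (r : ℝ) : ℝ := if r ≤ 10 * n then 1 / (n : ℝ) ^ 3 else 0

noncomputable def cb (l σ : ℤ) (x : E) : G3 := fun i => (cell x i + σ) / l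

noncomputable def dd (ψ : ℝ → ℝ) (x y : E) : ℝ := ψ (dist x y)

structure Good (ψ : ℝ → ℝ) (α : ℝ) : Prop where
  meas : Measurable ψ
  nonneg : ∀ r, 0 ≤ ψ r
  bd : ∀ N x, Q (dd ψ) N x ≤ 9261 * α * S N x

lemma Q_mono {v w : E → E → ℝ} {N : ℕ} {x : Fin N → E} (h : ∀ i j, v (x i) (x j) ≤ w (x i) (x j)) :
    Q v N x ≤ Q w N x := Finset.sum_le_sum fun i _ => Finset.sum_le_sum fun j _ => h i j

lemma same_nonneg (f : E → G3) (x y : E) : 0 ≤ same f x y := by unfold same; split_ifs <;> simp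

lemma Q_nonneg {v : E → E → ℝ} (h : ∀ a b, 0 ≤ v a b) (N : ℕ) (x : Fin N → E) : 0 ≤ Q v N x :=
  Finset.sum_nonneg fun _ _ => Finset.sum_nonneg fun _ _ => h _ _

lemma S_nonneg (N : ℕ) (x : Fin N → E) : 0 ≤ S N x := Q_nonneg (same_nonneg _) N x

lemma le_S (N : ℕ) (x : Fin N → E) : (N : ℝ) ≤ S N x := by
  have : (N : ℝ) = ∑ _i : Fin N, (1 : ℝ) := by simp
  rw [this]
  refine Finset.sum_le_sum fun i _ => ?_
  refine le_trans (le_of_eq ?_) (Finset.single_le_sum (f := fun j => same cell (x i) (x j))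
    (fun j _ => same_nonneg _ _ _) (Finset.mem_univ i))
  simp [same]

lemma schur0 {N : ℕ} (g : Fin N → G3) (d : G3) :
    ∑ i, ∑ j, (if g j = g i + d then (1 : ℝ) else 0) ≤ ∑ i, ∑ j, (if g i = g j then (1 : ℝ) else 0) := by
  let n : G3 → ℕ := fun c => (Finset.univ.filter fun i => g i = c).card
  have e1 : ∑ i, ∑ j, (if g j = g i + d then (1 : ℝ) else 0) = (∑ i, n (g i + d) : ℕ) := by
    simp [n]
  have e2 : ∑ i, ∑ j, (if g i = g j then (1 : ℝ) else 0) = (∑ i, n (g i) : ℕ) := by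
    simp [n, eq_comm]
  rw [e1, e2, Finset.sum_comp (fun c => n (c + d)) g, Finset.sum_comp n g]
  have h1 : ∑ c ∈ Finset.univ.image g, n (c + d) ^ 2 ≤ ∑ c ∈ Finset.univ.image g, n c ^ 2 := by
    rw [← Finset.sum_image (s := Finset.univ.image g) (g := fun c => c + d) (f := fun c => n c ^ 2)
      (fun a _ b _ h => add_right_cancel h)]
    refine Finset.sum_le_sum_of_ne_zero fun c _ hc => ?_
    have : n c ≠ 0 := fun h => hc (by simp [h])
    obtain ⟨i, hi⟩ := Finset.card_ne_zero.1 this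
    exact Finset.mem_image.2 ⟨i, Finset.mem_univ _, (Finset.mem_filter.1 hi).2⟩
  have h2 : 2 * ∑ c ∈ Finset.univ.image g, n c * n (c + d) ≤
      ∑ c ∈ Finset.univ.image g, n c ^ 2 + ∑ c ∈ Finset.univ.image g, n (c + d) ^ 2 := by
    rw [Finset.mul_sum, ← Finset.sum_add_distrib]
    exact Finset.sum_le_sum fun c _ => by nlinarith [two_mul_le_add_sq (n c : ℤ) (n (c + d))]
  have h3 : ∑ c ∈ Finset.univ.image g, n c * n (c + d) ≤ ∑ c ∈ Finset.univ.image g, n c * n c := by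
    simp only [sq] at h1 h2
    omega
  exact_mod_cast h3

lemma schur (f : E → G3) {w : E → E → ℝ} {N : ℕ} (x : Fin N → E) (D : ℕ) {c : ℝ} (hc : 0 ≤ c)
    (h1 : ∀ i j, w (x i) (x j) ≤ c)
    (h2 : ∀ i j, 0 < w (x i) (x j) → ∀ k, |f (x i) k - f (x j) k| ≤ D) :
    Q w N x ≤ c * (2 * D + 1) ^ 3 * Q (same f) N x := by
  let T : Finset G3 := Fintype.piFinset fun _ => Finset.Icc (-(D : ℤ)) D
  have hT : (T.card : ℝ) = (2 * D + 1) ^ 3 := by
    have : ((D : ℤ) + 1 + D).toNat = 2 * D + 1 := by omega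
    simp [T, this]
  have h3 : Q w N x ≤ ∑ i, ∑ j, c * ∑ d ∈ T, (if f (x j) = f (x i) + d then (1 : ℝ) else 0) := by
    refine Finset.sum_le_sum fun i _ => Finset.sum_le_sum fun j _ => ?_
    by_cases h : 0 < w (x i) (x j)
    · refine (h1 i j).trans (le_mul_of_one_le_right hc ?_)
      have hm : f (x j) - f (x i) ∈ T := by
        simp only [T, Fintype.mem_piFinset, Finset.mem_Icc, Pi.sub_apply]
        intro k
        have := abs_le.1 (h2 i j h k)
        omega
      refine le_trans (le_of_eq ?_) (Finset.single_le_sum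
        (f := fun d => if f (x j) = f (x i) + d then (1 : ℝ) else 0)
        (fun d _ => by split_ifs <;> simp) hm)
      simp
    · refine (not_lt.1 h).trans (mul_nonneg hc (Finset.sum_nonneg fun d _ => ?_))
      split_ifs <;> simp
  refine h3.trans ?_
  simp only [← Finset.mul_sum]
  rw [mul_assoc]
  refine mul_le_mul_of_nonneg_left ?_ hc
  have h4 : ∑ i, ∑ j, ∑ d ∈ T, (if f (x j) = f (x i) + d then (1 : ℝ) else 0) =
      ∑ d ∈ T, ∑ i, ∑ j, (if f (x j) = f (x i) + d then (1 : ℝ) else 0) := by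
    rw [Finset.sum_congr rfl fun i _ => Finset.sum_comm, Finset.sum_comm]
  rw [h4, ← hT, ← nsmul_eq_mul, ← Finset.sum_const]
  exact Finset.sum_le_sum fun d _ => schur0 (fun i => f (x i)) d

lemma coord_le (x y : E) (k : Fin 3) : |x k - y k| ≤ dist x y := by
  rw [← Real.dist_eq]
  exact PiLp.dist_apply_le x y k

lemma cell_diff {x y : E} {D : ℕ} (h : dist x y ≤ D) (k : Fin 3) : |cell x k - cell y k| ≤ D := by
  have h1 := abs_le.1 ((coord_le x y k).trans h)
  have h2 : ⌊x k⌋ ≤ ⌊y k + D⌋ := Int.floor_mono (by linarith)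
  have h3 : ⌊y k⌋ ≤ ⌊x k + D⌋ := Int.floor_mono (by linarith)
  rw [Int.floor_add_natCast] at h2 h3
  rw [abs_le]
  simp only [cell]
  omega

lemma dist_le_of_coord {x y : E} {r : ℝ} (hr : 0 ≤ r) (h : ∀ k, |x k - y k| ≤ r) :
    dist x y ≤ 2 * r := by
  rw [EuclideanSpace.dist_eq]
  refine Real.sqrt_le_iff.2 ⟨by positivity, ?_⟩
  have : ∀ k, dist (x k) (y k) ^ 2 ≤ r ^ 2 := fun k => by
    rw [Real.dist_eq]; exact pow_le_pow_left₀ (abs_nonneg _) (h k) 2
  rw [Fin.sum_univ_three]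
  nlinarith [this 0, this 1, this 2]

lemma dist_of_cell {x y : E} (h : cell x = cell y) : dist x y ≤ 2 := by
  have := dist_le_of_coord (x := x) (y := y) zero_le_one fun k =>
    (Int.abs_sub_lt_one_of_floor_eq_floor (congrFun h k)).le
  linarith

lemma psi_nonneg (n : ℕ) (r : ℝ) : 0 ≤ psi n r := by unfold psi; split_ifs <;> positivity

lemma psi_le (n : ℕ) (r : ℝ) : psi n r ≤ 1 / (n : ℝ) ^ 3 := by
  unfold psi; split_ifs <;> [rfl; positivity]

lemma psi_pos {n : ℕ} {r : ℝ} (h : 0 < psi n r) : r ≤ ((10 * n : ℕ) : ℝ) := by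
  unfold psi at h
  split_ifs at h with h1
  · push_cast; exact h1
  · exact absurd h (lt_irrefl _)

lemma psi_meas (n : ℕ) : Measurable (psi n) :=
  Measurable.ite measurableSet_Iic measurable_const measurable_const

lemma psi_anti (n : ℕ) : Antitone (psi n) := by
  intro a b hab
  unfold psi
  split_ifs with h1 h2
  · rfl
  · exact absurd (hab.trans h1) h2
  · positivity
  · rfl

lemma good_psi {n : ℕ} (hn : 1 ≤ n) : Good (psi n) 1 := by
  refine ⟨psi_meas n, psi_nonneg n, fun N x => ?_⟩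
  refine (schur cell x (10 * n) (c := 1 / (n : ℝ) ^ 3) (by positivity) (fun i j => psi_le _ _)
    fun i j h k => cell_diff (psi_pos h) k).trans
    (mul_le_mul_of_nonneg_right ?_ (S_nonneg N x))
  have h1 : (1 : ℝ) ≤ n := by exact_mod_cast hn
  have h2 : (2 * ((10 * n : ℕ) : ℝ) + 1) ^ 3 ≤ (21 * n) ^ 3 :=
    pow_le_pow_left₀ (by positivity) (by push_cast; linarith) 3
  rw [one_div, inv_mul_le_iff₀ (by positivity)]
  nlinarith

lemma kac {n : ℕ} (hn : 1 ≤ n) (σ : ℤ) (N : ℕ) (x : Fin N → E) :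
    Q (dd (psi n)) N x ≤ 9261 / (n : ℝ) ^ 3 * Q (same (cb n σ)) N x := by
  refine (schur (cb n σ) x 10 (c := 1 / (n : ℝ) ^ 3) (by positivity) (fun i j => psi_le _ _)
    fun i j h k => ?_).trans (le_of_eq (by push_cast; ring))
  have h1 := abs_le.1 (cell_diff (psi_pos h) k)
  have hn' : (0 : ℤ) < n := by exact_mod_cast hn
  have a1 : (cell (x i) k + σ) / n ≤ (cell (x j) k + σ + 10 * n) / n :=
    Int.ediv_le_ediv hn' (by push_cast at h1; omega)
  have a2 : (cell (x j) k + σ) / n ≤ (cell (x i) k + σ + 10 * n) / n :=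
    Int.ediv_le_ediv hn' (by push_cast at h1; omega)
  rw [Int.add_mul_ediv_right _ _ hn'.ne'] at a1 a2
  rw [abs_le]
  simp only [cb]
  push_cast
  omega

lemma count_le {l : ℤ} (hl : 0 < l) {a b : ℤ} {D : ℕ} (hab : a ≤ b) (h : b ≤ a + D) :
    ((Finset.Ico 0 l).filter fun σ => (a + σ) / l ≠ (b + σ) / l).card ≤ D := by
  refine le_trans (Finset.card_le_card (t := (Finset.Icc (1 : ℤ) D).image fun j => (-a - j) % l) ?_)
    (Finset.card_image_le.trans (by simp))
  intro σ hσ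
  simp only [Finset.mem_filter, Finset.mem_Ico] at hσ
  obtain ⟨⟨h0, h1⟩, h2⟩ := hσ
  have h3 : (a + σ) / l < (b + σ) / l :=
    lt_of_le_of_ne (Int.ediv_le_ediv hl (by omega)) h2
  have h4 : a + σ < (b + σ) / l * l := (Int.ediv_lt_iff_lt_mul hl).1 h3
  have h5 : (b + σ) / l * l ≤ b + σ := Int.ediv_mul_le _ hl.ne'
  refine Finset.mem_image.2 ⟨(b + σ) / l * l - a - σ, by simp only [Finset.mem_Icc]; omega, ?_⟩
  have : -a - ((b + σ) / l * l - a - σ) = σ + (-((b + σ) / l)) * l := by ring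
  rw [this, Int.add_mul_emod_self_right, Int.emod_eq_of_lt h0 h1]

lemma count_cb {l : ℤ} (hl : 0 < l) {x y : E} {D : ℕ} (h : dist x y ≤ D) :
    ∑ σ ∈ Finset.Ico 0 l, (1 - same (cb l σ) x y) ≤ 3 * D := by
  have h1 : ∀ k, ∑ σ ∈ Finset.Ico 0 l,
      (if (cell x k + σ) / l ≠ (cell y k + σ) / l then (1 : ℝ) else 0) ≤ D := by
    intro k
    rw [Finset.sum_boole]
    have := abs_le.1 (cell_diff h k)
    rcases le_total (cell x k) (cell y k) with h2 | h2
    · exact_mod_cast count_le hl h2 (by omega)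
    · simp only [ne_comm (a := (cell x k + _) / l)]
      exact_mod_cast count_le hl h2 (by omega)
  have h2 := Finset.sum_le_sum fun k (_ : k ∈ Finset.univ) => h1 k
  rw [Finset.sum_comm] at h2
  refine le_trans (Finset.sum_le_sum fun σ _ => ?_) (h2.trans (by simp))
  unfold same
  split_ifs with h3
  · simp only [sub_self]
    exact Finset.sum_nonneg fun k _ => by split_ifs <;> simp
  · obtain ⟨k, hk⟩ := Function.ne_iff.1 h3
    refine le_trans (le_of_eq ?_) (Finset.single_le_sum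
      (f := fun k => if (cell x k + σ) / l ≠ (cell y k + σ) / l then (1 : ℝ) else 0)
      (fun k _ => by split_ifs <;> simp) (Finset.mem_univ k))
    simp only [cb] at hk
    simp [hk]

lemma cross {l : ℕ} (hl : 1 ≤ l) {ψ : ℝ → ℝ} (h0 : ∀ r, 0 ≤ ψ r) {D : ℕ}
    (hD : ∀ r, (D : ℝ) < r → ψ r = 0) (N : ℕ) (x : Fin N → E) :
    ∃ σ ∈ Finset.Ico (0 : ℤ) l, Q (fun a b => dd ψ a b * (1 - same (cb l σ) a b)) N x ≤
      3 * D / l * Q (dd ψ) N x := by
  have hl' : (0 : ℤ) < l := by exact_mod_cast hl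
  have hlR : (0 : ℝ) < l := by exact_mod_cast hl
  refine Finset.exists_le_of_sum_le ⟨0, Finset.mem_Ico.2 ⟨le_rfl, hl'⟩⟩ ?_
  rw [Finset.sum_const, Int.card_Ico, nsmul_eq_mul]
  simp only [sub_zero, Int.toNat_natCast]
  rw [← mul_assoc, mul_div_cancel₀ _ hlR.ne']
  unfold Q
  rw [Finset.sum_comm, Finset.mul_sum]
  refine Finset.sum_le_sum fun i _ => ?_
  rw [Finset.sum_comm, Finset.mul_sum]
  refine Finset.sum_le_sum fun j _ => ?_
  rw [← Finset.mul_sum, mul_comm]
  by_cases h : dist (x i) (x j) ≤ D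
  · exact mul_le_mul_of_nonneg_right (count_cb hl' h) (h0 _)
  · simp [dd, hD _ (not_le.1 h)]

lemma meas_cell : Measurable cell :=
  measurable_pi_iff.2 fun i => Int.measurable_floor.comp (by fun_prop)

lemma meas_cb (l σ : ℤ) : Measurable (cb l σ) :=
  (measurable_of_countable (fun c : G3 => fun i => (c i + σ) / l)).comp meas_cell

lemma meas_same {f : E → G3} (hf : Measurable f) : Measurable (Function.uncurry (same f)) :=
  Measurable.ite (measurableSet_eq_fun (hf.comp measurable_fst) (hf.comp measurable_snd))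
    measurable_const measurable_const

lemma meas_dd {ψ : ℝ → ℝ} (h : Measurable ψ) : Measurable (Function.uncurry (dd ψ)) :=
  h.comp measurable_dist

lemma meas_box (L : ℝ) : MeasurableSet (box L) := by
  have : box L = ⋂ i, (fun x : E => x i) ⁻¹' Set.Icc 0 L := by ext x; simp [box]
  rw [this]
  exact MeasurableSet.iInter fun i => measurableSet_Icc.preimage (by fun_prop)

lemma vol_box {L : ℝ} (hL : 0 ≤ L) : volume (box L) = ENNReal.ofReal (L ^ 3) := by
  rw [← (PiLp.volume_preserving_toLp (Fin 3)).measure_preimage (meas_box L).nullMeasurableSet]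
  have : WithLp.toLp 2 ⁻¹' box L = Set.univ.pi fun _ : Fin 3 => Set.Icc (0 : ℝ) L := by
    ext x; simp [box, Pi.le_def, forall_and]
  rw [this, volume_pi, Measure.pi_pi]
  simp [ENNReal.ofReal_pow hL]

lemma box_mono {L L' : ℝ} (h : L ≤ L') : box L ⊆ box L' :=
  fun _ hx i => ⟨(hx i).1, (hx i).2.trans h⟩

lemma sq_le_S {l : ℕ} (hl : 1 ≤ l) {N : ℕ} {x : Fin N → E} (hx : ∀ i, x i ∈ box l) :
    (N : ℝ) ^ 2 ≤ 27 * (l : ℝ) ^ 3 * S N x := by
  have h1 := schur cell (w := fun _ _ => 1) x l zero_le_one (fun _ _ => le_rfl) fun i j _ k => by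
    have a1 := hx i k
    have a2 := hx j k
    have b1 : 0 ≤ ⌊x i k⌋ := Int.floor_nonneg.2 a1.1
    have b2 : 0 ≤ ⌊x j k⌋ := Int.floor_nonneg.2 a2.1
    have b3 : ⌊x i k⌋ ≤ l := by simpa using Int.floor_mono a1.2
    have b4 : ⌊x j k⌋ ≤ l := by simpa using Int.floor_mono a2.2
    rw [abs_le]; simp only [cell]; omega
  have h2 : Q (fun _ _ => 1) N x = (N : ℝ) ^ 2 := by simp [Q, sq]
  rw [h2] at h1
  refine h1.trans (mul_le_mul_of_nonneg_right ?_ (S_nonneg N x))
  have h3 : (1 : ℝ) ≤ l := by exact_mod_cast hl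
  have h4 : (2 * (l : ℝ) + 1) ^ 3 ≤ (3 * l) ^ 3 := pow_le_pow_left₀ (by positivity) (by linarith) 3
  nlinarith

end Vale.Agent.P171
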