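import Vale.Agent.P171.Thermo

namespace Vale.Agent.P171

open Set MeasureTheory Finset Filter Topology
open scoped ENNReal Nat

lemma pr_nonneg {ψ : ℝ → ℝ} (h : Nice ψ) (μ : ℝ) : 0 ≤ pr μ ψ := by
  refine ge_of_tendsto (h.tends μ) ((eventually_gt_atTop 0).mono fun L hL => ?_)
  exact div_nonneg (lz_nonneg (En_zero _ _) (Bd_En h.good le_rfl μ hL.le)) (by positivity)

lemma pr_usc {ψ ψ' : ℝ → ℝ} (h : Nice ψ) (h' : Nice ψ') {θ : ℝ} (h0 : 0 ≤ θ) (h1 : θ ≤ 1) (μ : ℝ)
    (hle : ∀ N x, Q (dd ψ') N x ≤ Q (dd ψ) N x + 2 * θ * S N x) :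
    pr μ ψ' ≤ pr μ ψ + θ * Real.exp (μ + hh) := by
  refine le_of_tendsto_of_tendsto (h'.tends μ) ((h.tends μ).add_const _)
    ((eventually_gt_atTop 0).mono fun L hL => ?_)
  have bL := Bd_En h.good le_rfl μ hL.le
  have hz := lz_nonneg (En_zero μ ψ) bL
  have b2 := Bd_holder (meas_box L) (θ := θ) (c := 0) (H := En μ ψ')
    (meas_En μ h.good.meas) (meas_EnS μ h.good.meas) (Bd_lz (En_zero _ _) bL)
    (Bd_stab h.good le_rfl μ hL.le) h0 h1 (fun N x _ => by
      have := hle N x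
      simp only [En_eq]
      linarith)
  have b3 := lz_le (En_zero _ _) b2
  show _ / L ^ 3 ≤ _ / L ^ 3 + _
  rw [div_add' _ _ _ (by positivity)]
  refine div_le_div_of_nonneg_right ?_ (by positivity)
  nlinarith

lemma pr_mono {ψ ψ' : ℝ → ℝ} (h : Nice ψ) (h' : Nice ψ') (μ : ℝ) (hle : ∀ r, ψ' r ≤ ψ r) :
    pr μ ψ' ≤ pr μ ψ := by
  simpa using pr_usc h h' le_rfl zero_le_one μ fun N x => by
    simpa using Q_mono (v := dd ψ') (w := dd ψ) fun _ _ => hle _

lemma good_zero {α : ℝ} (hα : 0 ≤ α) : Good (fun _ => 0) α :=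
  ⟨measurable_const, fun _ => le_rfl, fun N x => by
    have : Q (dd fun _ => 0) N x = 0 := by simp [Q, dd]
    rw [this]
    exact mul_nonneg (by positivity) (S_nonneg N x)⟩

lemma nice_of_fin {ψ : ℝ → ℝ} {α : ℝ} (hg : Good ψ α) (hα : α ≤ 500000) {D : ℕ}
    (hD : ∀ r, (D : ℝ) < r → ψ r = 0) : Nice ψ :=
  have g := hg.mono hg.meas hg.nonneg (fun _ => le_rfl) hα
  ⟨g, fun _ hη => ⟨D, ψ, fun _ => 0, by simp, g, good_zero hη.le, hD⟩⟩

lemma nice_zero : Nice fun _ => 0 := nice_of_fin (D := 0) (good_zero le_rfl) (by norm_num) (by simp)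

lemma pr_zero : pr 0 (fun _ => 0) ≤ 1 := by
  refine le_of_tendsto (nice_zero.tends 0) ((eventually_gt_atTop 0).mono fun L hL => ?_)
  have b := Bd_ideal (meas_box L) (H := En 0 fun _ => 0) (b := 0) (by positivity)
    (vol_box hL.le).le fun N x _ => by
      have h1 : Q (dd fun _ => 0) N x = 0 := by simp [Q, dd]
      have h2 := mul_le_mul_of_nonneg_left ((le_S N x).trans (S_le_rep N x)) hh_pos.le
      rw [En_eq, h1]
      linarith
  have := lz_le (En_zero _ _) b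
  rw [div_le_one (by positivity)]
  simpa using this

noncomputable def TT (m : ℕ) : Finset G3 := Fintype.piFinset fun _ => Finset.Ico (0 : ℤ) m

def Tr (ψ : ℝ → ℝ) (α : ℝ) : Prop :=
  ∃ m0 : ℕ, ∀ m, m0 ≤ m → ∀ s ∈ TT m, α ≤ ∑ t ∈ (TT m).erase s, ψ (10 * dist s t)

lemma Tr.add {ψ ψ' : ℝ → ℝ} {α α' t : ℝ} (h : Tr ψ α) (h' : Tr ψ' α') (ht : 0 ≤ t) :
    Tr (fun r => ψ r + t * ψ' r) (α + t * α') := by
  obtain ⟨a, ha⟩ := h
  obtain ⟨b, hb⟩ := h'
  refine ⟨max a b, fun m hm s hs => ?_⟩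
  rw [Finset.sum_add_distrib, ← Finset.mul_sum]
  exact add_le_add (ha m (le_of_max_le_left hm) s hs)
    (mul_le_mul_of_nonneg_left (hb m (le_of_max_le_right hm) s hs) ht)

lemma tr_zero {ψ : ℝ → ℝ} (h : ∀ r, 0 ≤ ψ r) : Tr ψ 0 :=
  ⟨0, fun _ _ _ _ => Finset.sum_nonneg fun _ _ => h _⟩

lemma tr_psi {n : ℕ} (hn : 1 ≤ n) : Tr (psi n) 1 := by
  refine ⟨2 * n, fun m hm s hs => ?_⟩
  let W : Finset G3 := Fintype.piFinset fun _ => Finset.Icc (1 : ℤ) n
  let F : G3 → G3 := fun w i => if s i + n < m then s i + w i else s i - w i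
  have hinj : Function.Injective F := by
    intro a b h
    funext i
    have := congrFun h i
    simp only [F] at this
    split_ifs at this <;> omega
  have hs' : ∀ i, 0 ≤ s i ∧ s i < m := by simpa [TT] using hs
  have hW : ∀ w ∈ W, ∀ i, 1 ≤ w i ∧ w i ≤ n := by simp [W]
  have hsub : W.image F ⊆ (TT m).erase s := by
    intro t ht
    obtain ⟨w, hw, rfl⟩ := Finset.mem_image.1 ht
    refine Finset.mem_erase.2 ⟨fun h => ?_, ?_⟩
    · have h1 := congrFun h 0
      have := hW w hw 0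
      simp only [F] at h1
      split_ifs at h1 <;> omega
    · simp only [TT, Fintype.mem_piFinset, Finset.mem_Ico, F]
      intro i
      have := hW w hw i
      have := hs' i
      split_ifs <;> omega
  refine le_trans (le_of_eq ?_)
    (Finset.sum_le_sum_of_subset_of_nonneg hsub fun _ _ _ => psi_nonneg _ _)
  rw [Finset.sum_image fun a _ b _ h => hinj h, Finset.sum_congr rfl (g := fun _ => 1 / (n : ℝ) ^ 3)]
  · have : (n : ℝ) ≠ 0 := by positivity
    simp [W]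
    field_simp
  · intro w hw
    have : dist s (F w) ≤ n := by
      refine (dist_pi_le_iff (by positivity)).2 fun i => ?_
      rw [Int.dist_eq]
      have := hW w hw i
      have h2 : |s i - F w i| ≤ n := by
        simp only [F]
        rw [abs_le]
        split_ifs <;> omega
      exact_mod_cast h2
    unfold psi
    rw [if_pos (by linarith)]

noncomputable def CC (t : G3) : Set E :=
  (fun x => x + WithLp.toLp 2 fun i => -(4 * (t i : ℝ))) ⁻¹' box 1

lemma mem_CC {t : G3} {x : E} (h : x ∈ CC t) (i : Fin 3) :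
    4 * (t i : ℝ) ≤ x i ∧ x i ≤ 4 * t i + 1 := by
  have h1 : x i + -(4 * (t i : ℝ)) ∈ Set.Icc (0 : ℝ) 1 := h i
  constructor <;> linarith [h1.1, h1.2]

lemma CC_dist {s t : G3} (h : s ≠ t) {x y : E} (hx : x ∈ CC s) (hy : y ∈ CC t) :
    3 ≤ dist x y ∧ dist x y ≤ 10 * dist s t := by
  obtain ⟨k, hk⟩ := Function.ne_iff.1 h
  have h1 : (1 : ℝ) ≤ |(s k : ℝ) - t k| := by
    have : 1 ≤ |s k - t k| := Int.one_le_abs (sub_ne_zero.2 hk)
    exact_mod_cast this
  have h2 : ∀ i, |(s i : ℝ) - t i| ≤ dist s t := fun i => by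
    rw [← Int.dist_eq]; exact dist_le_pi_dist s t i
  constructor
  · refine le_trans ?_ (coord_le x y k)
    have a := mem_CC hx k
    have b := mem_CC hy k
    rcases le_abs'.1 h1 with h3 | h3
    · exact le_abs'.2 (Or.inl (by linarith [a.2, b.1]))
    · exact le_abs'.2 (Or.inr (by linarith [a.1, b.2]))
  · have h3 := h1.trans (h2 k)
    have := dist_le_of_coord (x := x) (y := y) (r := 5 * dist s t) (by positivity) fun i => by
      have a := mem_CC hx i
      have b := mem_CC hy i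
      have c := abs_le.1 (h2 i)
      rw [abs_le]
      constructor <;> linarith [a.1, a.2, b.1, b.2, c.1, c.2]
    linarith

lemma trial {ψ : ℝ → ℝ} (h : Nice ψ) (ha : Antitone ψ) {α : ℝ} (ht : Tr ψ α) (μ : ℝ) :
    (μ + α / 2) / 64 ≤ pr μ ψ := by
  obtain ⟨m0, hm0⟩ := ht
  have hd : Tendsto (fun L : ℝ => L / 4) atTop atTop := tendsto_id.atTop_div_const (by norm_num)
  have h1 : Tendsto (fun L : ℝ => ((⌊L / 4⌋₊ : ℝ) / (L / 4)) ^ 3 * ((μ + α / 2) / 64)) atTop
      (𝓝 (1 ^ 3 * ((μ + α / 2) / 64))) :=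
    (((tendsto_nat_floor_div_atTop (R := ℝ)).comp hd).pow 3).mul_const _
  rw [one_pow, one_mul] at h1
  refine le_of_tendsto_of_tendsto h1 (h.tends μ) ?_
  filter_upwards [(tendsto_nat_floor_atTop.comp hd).eventually_ge_atTop m0,
    eventually_gt_atTop 0] with L hm hL
  set m := ⌊L / 4⌋₊ with hmdef
  have hmL : (m : ℝ) ≤ L / 4 := Nat.floor_le (by positivity)
  have hcard : (TT m).card = m ^ 3 := by simp [TT]
  have hJ := J_trial CC (fun t => (meas_box 1).preimage (by fun_prop))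
    (fun t => by rw [CC, measure_preimage_add_right, vol_box zero_le_one]; simp)
    (fun s t hst => Set.disjoint_left.2 fun x hx hy => by
      have := (CC_dist hst hx hy).1
      rw [dist_self] at this
      linarith)
    (Λ := box L) (meas_vv h.good.meas) (fun s t => if s = t then -hh else ψ (10 * dist s t) / 2)
    (fun s t hst x hx y hy => by
      obtain ⟨a, b⟩ := CC_dist hst hx hy
      have : rep (dist x y) = 0 := if_neg (by linarith)
      have h3 := ha b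
      simp only [hst, if_false, vv, dd, this]
      linarith)
    (fun t x _ => by
      have := h.good.nonneg 0
      simp [vv, dd, rep]
      linarith)
    (m ^ 3) (TT m) (fun _ => μ + hh) (fun _ => μ + hh) hcard measurable_const
    (fun t ht x hx i => by
      have a := mem_CC hx i
      have b : 0 ≤ t i ∧ t i < m := by
        simp only [TT, Fintype.mem_piFinset, Finset.mem_Ico] at ht
        exact ht i
      have b1 : (0 : ℝ) ≤ t i := by exact_mod_cast b.1
      have b2 : (t i : ℝ) + 1 ≤ m := by exact_mod_cast b.2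
      constructor <;> linarith [a.1, a.2])
    (fun _ _ _ _ => le_rfl)
  have h2 : (m : ℝ) ^ 3 * (μ + α / 2) ≤ ∑ _t ∈ TT m, (μ + hh) +
      ∑ s ∈ TT m, ∑ t ∈ TT m, (if s = t then -hh else ψ (10 * dist s t) / 2) := by
    rw [← Finset.sum_add_distrib]
    refine le_trans (le_of_eq ?_) (Finset.card_nsmul_le_sum _ _ (μ + α / 2) fun s hs => ?_)
    · rw [hcard, nsmul_eq_mul]; push_cast; rfl
    · rw [← Finset.add_sum_erase _ _ hs, if_pos rfl,
        Finset.sum_congr rfl fun t ht => if_neg (Finset.ne_of_mem_erase ht).symm,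
        ← Finset.sum_div]
      have := hm0 m hm s hs
      linarith
  have h3 : (m : ℝ) ^ 3 * (μ + α / 2) ≤ lz L (En μ ψ) := by
    refine le_lz (Bd_En h.good le_rfl μ hL.le) (le_trans ?_ (ENNReal.le_tsum (m ^ 3)))
    rw [ENNReal.le_div_iff_mul_le (Or.inl (by exact_mod_cast Nat.factorial_ne_zero _))
      (Or.inl (by simp)), mul_comm]
    exact le_trans (mul_le_mul_right (ENNReal.ofReal_le_ofReal (Real.exp_le_exp.2 h2)) _) hJ
  show _ ≤ _ / L ^ 3
  rw [le_div_iff₀ (by positivity)]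
  refine le_trans (le_of_eq ?_) h3
  field_simp
  ring

noncomputable def gg (ψ : ℝ → ℝ) : ℝ :=
  sInf ((fun μ => pr μ ψ - μ / 100000) '' Set.Icc (-300000) 300000)

lemma gg_le {ψ : ℝ → ℝ} (h : Nice ψ) {μ : ℝ} (hμ : μ ∈ Set.Icc (-300000 : ℝ) 300000) :
    gg ψ ≤ pr μ ψ - μ / 100000 := by
  refine csInf_le ⟨-3, ?_⟩ ⟨μ, hμ, rfl⟩
  rintro _ ⟨ν, hν, rfl⟩
  have := pr_nonneg h ν
  have := hν.2
  simp only
  linarith

lemma le_gg {ψ : ℝ → ℝ} {c : ℝ}
    (h : ∀ μ ∈ Set.Icc (-300000 : ℝ) 300000, c ≤ pr μ ψ - μ / 100000) : c ≤ gg ψ :=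
  le_csInf ⟨_, 0, by norm_num, rfl⟩ (by rintro _ ⟨ν, hν, rfl⟩; exact h ν hν)

lemma gg_lower {ψ : ℝ → ℝ} (h : Nice ψ) (ha : Antitone ψ) {α : ℝ} (ht : Tr ψ α) :
    α / 200000 ≤ gg ψ := le_gg fun μ _ => by
  have := trial h ha ht μ
  have := pr_nonneg h μ
  linarith

lemma gg_usc {ψ ψ' : ℝ → ℝ} (h : Nice ψ) (h' : Nice ψ') {θ : ℝ} (h0 : 0 ≤ θ) (h1 : θ ≤ 1)
    (hle : ∀ N x, Q (dd ψ') N x ≤ Q (dd ψ) N x + 2 * θ * S N x) :
    gg ψ' ≤ gg ψ + θ * Real.exp (300000 + hh) := by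
  rw [← sub_le_iff_le_add]
  refine le_gg fun μ hμ => ?_
  have a := pr_usc h h' h0 h1 μ hle
  have b := gg_le h' hμ
  have c := mul_le_mul_of_nonneg_left (Real.exp_le_exp.2 (add_le_add_left hμ.2 hh)) h0
  linarith

lemma gg_mono {ψ ψ' : ℝ → ℝ} (h : Nice ψ) (h' : Nice ψ') (hle : ∀ r, ψ' r ≤ ψ r) :
    gg ψ' ≤ gg ψ := le_gg fun μ hμ => by
  have a := pr_mono h h' μ hle
  have b := gg_le h' hμ
  linarith

structure St where
  ψ : ℝ → ℝ
  α : ℝ
  D : ℕ
  good : Good ψ α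
  anti : Antitone ψ
  tr : Tr ψ α
  supp : ∀ r, (D : ℝ) < r → ψ r = 0
  le : ∀ r, ψ r ≤ α
  hα : α ≤ 400000
  hg : gg ψ ≤ 1 + α / 400000

lemma St.nice_add (s : St) {t : ℝ} (h0 : 0 ≤ t) (h1 : t ≤ 1) {n : ℕ} (hn : 1 ≤ n) :
    Good (fun r => s.ψ r + t * psi n r) 500000 ∧
      ∀ r, ((max s.D (10 * n) : ℕ) : ℝ) < r → s.ψ r + t * psi n r = 0 := by
  have g := s.good.add (good_psi hn) h0
  refine ⟨g.mono g.meas g.nonneg (fun _ => le_rfl) (by linarith [s.hα]), fun r hr => ?_⟩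
  push_cast at hr
  have h2 : psi n r = 0 := if_neg (not_le.2 (lt_of_le_of_lt (le_max_right _ _) hr))
  rw [s.supp r (lt_of_le_of_lt (le_max_left _ _) hr), h2]
  simp

lemma St.step (s : St) : ∃ (s' : St) (t : ℝ) (n : ℕ), 0 ≤ t ∧ 1 ≤ n ∧ s'.α = s.α + t ∧
    (∀ r, s'.ψ r = s.ψ r + t * psi n r) ∧
    ∀ t' ∈ Set.Icc (0 : ℝ) 1, ∀ n', 1 ≤ n' →
      gg (fun r => s.ψ r + t' * psi n' r) ≤ gg s.ψ + t' / 400000 → t' ≤ 2 * t := by
  let T : Set ℝ := {t | t ∈ Set.Icc (0 : ℝ) 1 ∧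
    ∃ n, 1 ≤ n ∧ gg (fun r => s.ψ r + t * psi n r) ≤ gg s.ψ + t / 400000}
  have h0 : (0 : ℝ) ∈ T := ⟨⟨le_rfl, zero_le_one⟩, 1, le_rfl, by simp⟩
  have hb : BddAbove T := ⟨1, fun t ht => ht.1.2⟩
  obtain ⟨t, ht, ht2⟩ : ∃ t ∈ T, sSup T ≤ 2 * t := by
    rcases le_or_gt (sSup T) 0 with h | h
    · exact ⟨0, h0, by linarith⟩
    · obtain ⟨t, ht, h2⟩ := exists_lt_of_lt_csSup ⟨0, h0⟩ (half_lt_self h)
      exact ⟨t, ht, by linarith⟩
  obtain ⟨⟨t0, t1⟩, n, hn, hg⟩ := ht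
  obtain ⟨g5, hs⟩ := s.nice_add t0 t1 hn
  have anti : Antitone fun r => s.ψ r + t * psi n r := fun a b hab =>
    add_le_add (s.anti hab) (mul_le_mul_of_nonneg_left (psi_anti n hab) t0)
  have tr := s.tr.add (tr_psi hn) t0
  have lo := gg_lower (nice_of_fin g5 le_rfl hs) anti tr
  have hg0 := s.hg
  refine ⟨⟨fun r => s.ψ r + t * psi n r, s.α + t * 1, max s.D (10 * n), s.good.add (good_psi hn) t0,
    anti, tr, hs, fun r => add_le_add (s.le r) (mul_le_mul_of_nonneg_left ?_ t0), by linarith,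
    by linarith⟩, t, n, t0, hn, by simp, fun _ => rfl,
    fun t' ht' n' hn' h => (le_csSup hb ⟨ht', n', hn', h⟩).trans ht2⟩
  refine (psi_le n r).trans ?_
  have : (1 : ℝ) ≤ n := by exact_mod_cast hn
  rw [div_le_one (by positivity)]
  exact one_le_pow₀ this

noncomputable def St0 : St :=
  ⟨fun _ => 0, 0, 0, good_zero le_rfl, fun _ _ _ => le_rfl, tr_zero fun _ => le_rfl, by simp,
    fun _ => le_rfl, by norm_num, by
      have := gg_le nice_zero (μ := 0) (by norm_num)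
      have := pr_zero
      linarith⟩

theorem exists_max : ∃ ψ : ℝ → ℝ, Nice ψ ∧ Antitone ψ ∧ (∀ r, ψ r ≤ 400000) ∧ gg ψ ≤ 2 ∧
    ∀ t, 0 < t → t ≤ 1 → ∀ n, 1 ≤ n → Nice (fun r => ψ r + t * psi n r) ∧
      gg ψ + t / 400000 ≤ gg fun r => ψ r + t * psi n r := by
  choose nx tt nn h0 hn hα hψ hmax using St.step
  let s : ℕ → St := fun j => nx^[j] St0
  have hs : ∀ j, s (j + 1) = nx (s j) := fun j => Function.iterate_succ_apply' nx j St0
  have mα : Monotone fun j => (s j).α := monotone_nat_of_le_succ fun j => by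
    rw [hs, hα]; linarith [h0 (s j)]
  have mψ : ∀ r, Monotone fun j => (s j).ψ r := fun r => monotone_nat_of_le_succ fun j => by
    rw [hs, hψ]; linarith [mul_nonneg (h0 (s j)) (psi_nonneg (nn (s j)) r)]
  have bα : BddAbove (Set.range fun j => (s j).α) := ⟨400000, by rintro _ ⟨j, rfl⟩; exact (s j).hα⟩
  have bψ : ∀ r, BddAbove (Set.range fun j => (s j).ψ r) := fun r =>
    ⟨400000, by rintro _ ⟨j, rfl⟩; exact ((s j).le r).trans (s j).hα⟩
  set a := ⨆ j, (s j).α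
  set ψ : ℝ → ℝ := fun r => ⨆ j, (s j).ψ r
  have tα : Tendsto (fun j => (s j).α) atTop (𝓝 a) := tendsto_atTop_ciSup mα bα
  have tψ : ∀ r, Tendsto (fun j => (s j).ψ r) atTop (𝓝 (ψ r)) :=
    fun r => tendsto_atTop_ciSup (mψ r) (bψ r)
  have lψ : ∀ j r, (s j).ψ r ≤ ψ r := fun j r => le_ciSup (bψ r) j
  have lα : ∀ j, (s j).α ≤ a := fun j => le_ciSup bα j
  have ha : a ≤ 400000 := ciSup_le fun j => (s j).hα
  have mm : Measurable ψ :=
    measurable_of_tendsto_metrizable (fun j => (s j).good.meas) (tendsto_pi_nhds.2 tψ)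
  have g1 : ∀ j k, j ≤ k → ∀ N x,
      Q (dd (s k).ψ) N x ≤ Q (dd (s j).ψ) N x + 9261 * ((s k).α - (s j).α) * S N x := by
    intro j k hjk N x
    induction k, hjk using Nat.le_induction with
    | base => simp
    | succ k _ ih =>
      have e : Q (dd (s (k + 1)).ψ) N x =
          Q (dd (s k).ψ) N x + tt (s k) * Q (dd (psi (nn (s k)))) N x := by
        rw [← Q_mul, ← Q_add, hs]
        simp only [Q, dd, hψ]
      have := mul_le_mul_of_nonneg_left ((good_psi (hn (s k))).bd N x) (h0 (s k))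
      rw [e, hs, hα]
      linarith
  have g2 : ∀ j N x, Q (dd ψ) N x ≤ Q (dd (s j).ψ) N x + 9261 * (a - (s j).α) * S N x := by
    intro j N x
    have t1 : Tendsto (fun k => Q (dd (s k).ψ) N x) atTop (𝓝 (Q (dd ψ) N x)) :=
      tendsto_finsetSum _ fun i _ => tendsto_finsetSum _ fun j _ => tψ _
    refine le_of_tendsto t1 ((eventually_ge_atTop j).mono fun k hk => (g1 j k hk N x).trans ?_)
    have := mul_le_mul_of_nonneg_right (lα k) (S_nonneg N x)
    linarith
  have g3 : ∀ j, Good (fun r => ψ r - (s j).ψ r) (a - (s j).α) := fun j =>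
    ⟨mm.sub (s j).good.meas, fun r => sub_nonneg.2 (lψ j r), fun N x => by
      have e : Q (dd ψ) N x = Q (dd (s j).ψ) N x + Q (dd fun r => ψ r - (s j).ψ r) N x := by
        rw [← Q_add]; simp [Q, dd]
      have := g2 j N x
      linarith⟩
  have g0 : Good ψ a := by simpa [s, St0] using g3 0
  have t0 : Tendsto (fun j => a - (s j).α) atTop (𝓝 0) := by
    simpa using tα.const_sub a
  have nice : ∀ t, 0 ≤ t → t ≤ 1 → ∀ n, 1 ≤ n → Nice fun r => ψ r + t * psi n r := by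
    intro t ht0 ht1 n hn
    have g := g0.add (good_psi hn) ht0
    refine ⟨g.mono g.meas g.nonneg (fun _ => le_rfl) (by linarith), fun η hη => ?_⟩
    obtain ⟨j, hj⟩ := (t0.eventually (gt_mem_nhds hη)).exists
    obtain ⟨g5, hD⟩ := (s j).nice_add ht0 ht1 hn
    exact ⟨_, _, fun r => ψ r - (s j).ψ r, fun r => by ring, g5,
      (g3 j).mono (g3 j).meas (g3 j).nonneg (fun _ => le_rfl) hj.le, hD⟩
  have nice0 : Nice ψ := by simpa using nice 0 le_rfl zero_le_one 1 le_rfl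
  have nj : ∀ j, Nice (s j).ψ := fun j =>
    nice_of_fin (s j).good ((s j).hα.trans (by norm_num)) (s j).supp
  set P := Real.exp (300000 + hh)
  have t2 : Tendsto (fun j => 9261 / 2 * (a - (s j).α)) atTop (𝓝 0) := by
    simpa using t0.const_mul (9261 / 2)
  have t3 : Tendsto (fun j => 9261 / 2 * (a - (s j).α) * P) atTop (𝓝 0) := by
    simpa using t2.mul_const P
  have usc : ∀ᶠ j in atTop, gg ψ ≤ gg (s j).ψ + 9261 / 2 * (a - (s j).α) * P := by
    filter_upwards [t2.eventually (gt_mem_nhds one_pos)] with j hj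
    refine gg_usc (nj j) nice0 (by linarith [lα j]) hj.le fun N x => ?_
    have := g2 j N x
    linarith
  refine ⟨ψ, nice0, fun x y hxy => ciSup_le fun j => ((s j).anti hxy).trans (lψ j x),
    fun r => ciSup_le fun j => ((s j).le r).trans (s j).hα, ?_,
    fun t ht0 ht1 n hn => ⟨nice t ht0.le ht1 n hn, ?_⟩⟩
  · refine ge_of_tendsto (by simpa using t3.const_add 2) (usc.mono fun j hj => ?_)
    have := (s j).hg
    have := (s j).hα
    linarith
  · have t4 : Tendsto (fun j => (s (j + 1)).α - (s j).α) atTop (𝓝 0) := by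
      simpa using (tα.comp (tendsto_add_atTop_nat 1)).sub tα
    refine ge_of_tendsto (by simpa using t3.const_add (gg fun r => ψ r + t * psi n r)) ?_
    filter_upwards [usc, t4.eventually (gt_mem_nhds (half_pos ht0))] with j hj h4
    rw [hs, hα] at h4
    have h5 : gg (s j).ψ + t / 400000 < gg fun r => (s j).ψ r + t * psi n r := by
      by_contra h
      have := hmax (s j) t ⟨ht0.le, ht1⟩ n hn (not_lt.1 h)
      linarith
    obtain ⟨g5, hD⟩ := (s j).nice_add ht0.le ht1 hn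
    have h6 := gg_mono (nice t ht0.le ht1 n hn) (nice_of_fin g5 le_rfl hD)
      fun r => add_le_add_left (lψ j r) _
    linarith

end Vale.Agent.P171
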