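import Vale.Agent.P171.Geo

namespace Vale.Agent.P171

open Set MeasureTheory Finset Filter Topology
open scoped ENNReal Nat

noncomputable def rep (r : ℝ) : ℝ := if r ≤ 2 then 1 else 0

/-- half height of the repulsive step -/
noncomputable def hh : ℝ := 9261 * 500000 / 2 + 1

noncomputable def vv (ψ : ℝ → ℝ) (a b : E) : ℝ := dd ψ a b / 2 - hh * dd rep a b

noncomputable def En (μ : ℝ) (ψ : ℝ → ℝ) : Fam := PE (fun _ => μ + hh) (vv ψ)

lemma rep_meas : Measurable rep := Measurable.ite measurableSet_Iic measurable_const measurable_const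

lemma rep_nonneg (r : ℝ) : 0 ≤ rep r := by unfold rep; split_ifs <;> simp

lemma hh_pos : 0 < hh := by unfold hh; norm_num

lemma meas_vv {ψ : ℝ → ℝ} (h : Measurable ψ) : Measurable (Function.uncurry (vv ψ)) :=
  ((meas_dd h).div_const 2).sub ((meas_dd rep_meas).const_mul hh)

lemma meas_En (μ : ℝ) {ψ : ℝ → ℝ} (h : Measurable ψ) : Meas (En μ ψ) :=
  meas_PE measurable_const (meas_vv h)

lemma meas_S : Meas S := meas_Q (meas_same meas_cell)

lemma En_eq (μ : ℝ) (ψ : ℝ → ℝ) (N : ℕ) (x : Fin N → E) :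
    En μ ψ N x = (μ + hh) * N + Q (dd ψ) N x / 2 - hh * Q (dd rep) N x := by
  simp only [En, PE, Q, vv, Finset.sum_sub_distrib, Finset.sum_div, Finset.mul_sum]
  simp
  ring

lemma S_le_rep (N : ℕ) (x : Fin N → E) : S N x ≤ Q (dd rep) N x := by
  refine Q_mono fun i j => ?_
  unfold same
  split_ifs with h
  · simp [dd, rep, dist_of_cell h]
  · exact rep_nonneg _

lemma stab {ψ : ℝ → ℝ} {α : ℝ} (hg : Good ψ α) (hα : α ≤ 500000) (μ : ℝ) (N : ℕ)
    (x : Fin N → E) : En μ ψ N x + S N x ≤ (μ + hh) * N := by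
  rw [En_eq]
  have h1 := hg.bd N x
  have h2 := S_le_rep N x
  have h3 := S_nonneg N x
  have h4 := mul_le_mul_of_nonneg_right hα h3
  have h5 := mul_le_mul_of_nonneg_left h2 hh_pos.le
  unfold hh at *
  nlinarith

lemma meas_EnS (μ : ℝ) {ψ : ℝ → ℝ} (h : Measurable ψ) : Meas fun N x => En μ ψ N x + S N x :=
  fun N => (meas_En μ h N).add (meas_S N)

lemma Bd_stab {ψ : ℝ → ℝ} {α : ℝ} (hg : Good ψ α) (hα : α ≤ 500000) (μ : ℝ) {L : ℝ} (hL : 0 ≤ L) :
    Bd (box L) (fun N x => En μ ψ N x + S N x) (Real.exp (μ + hh) * L ^ 3) :=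
  Bd_ideal (meas_box L) (by positivity) (vol_box hL).le fun N x _ => stab hg hα μ N x

lemma Bd_En {ψ : ℝ → ℝ} {α : ℝ} (hg : Good ψ α) (hα : α ≤ 500000) (μ : ℝ) {L : ℝ} (hL : 0 ≤ L) :
    Bd (box L) (En μ ψ) (Real.exp (μ + hh) * L ^ 3) :=
  le_trans (Z_mono (meas_box L) subset_rfl fun N x _ => le_add_of_nonneg_right (S_nonneg N x))
    (Bd_stab hg hα μ hL)

noncomputable def lz (L : ℝ) (H : Fam) : ℝ := Real.log (Z (box L) H).toReal

lemma En_zero (μ : ℝ) (ψ : ℝ → ℝ) (x : Fin 0 → E) : En μ ψ 0 x = 0 := by simp [En, PE, Q]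

lemma lz_le {L : ℝ} {H : Fam} {A : ℝ} (h0 : ∀ x, H 0 x = 0) (h : Bd (box L) H A) : lz L H ≤ A := by
  have h1 := one_le_Z (box L) h0
  have h2 : Z (box L) H ≠ ⊤ := ne_top_of_le_ne_top ENNReal.ofReal_ne_top h
  have h3 : 0 < (Z (box L) H).toReal := ENNReal.toReal_pos (by intro h; simp [h] at h1) h2
  rw [lz, Real.log_le_iff_le_exp h3]
  exact ENNReal.toReal_le_of_le_ofReal (Real.exp_pos _).le h

lemma lz_nonneg {L : ℝ} {H : Fam} {A : ℝ} (h0 : ∀ x, H 0 x = 0) (h : Bd (box L) H A) :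
    0 ≤ lz L H := by
  have h1 := one_le_Z (box L) h0
  have h2 : Z (box L) H ≠ ⊤ := ne_top_of_le_ne_top ENNReal.ofReal_ne_top h
  refine Real.log_nonneg ?_
  simpa using ENNReal.toReal_mono h2 h1

lemma Bd_lz {L : ℝ} {H : Fam} {A : ℝ} (h0 : ∀ x, H 0 x = 0) (h : Bd (box L) H A) :
    Bd (box L) H (lz L H) := by
  have h1 := one_le_Z (box L) h0
  have h2 : Z (box L) H ≠ ⊤ := ne_top_of_le_ne_top ENNReal.ofReal_ne_top h
  have h3 : 0 < (Z (box L) H).toReal := ENNReal.toReal_pos (by intro h; simp [h] at h1) h2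
  rw [Bd, lz, Real.exp_log h3, ENNReal.ofReal_toReal h2]

lemma le_lz {L : ℝ} {H : Fam} {A B : ℝ} (h : Bd (box L) H A)
    (hB : ENNReal.ofReal (Real.exp B) ≤ Z (box L) H) : B ≤ lz L H := by
  have h2 : Z (box L) H ≠ ⊤ := ne_top_of_le_ne_top ENNReal.ofReal_ne_top h
  have h3 := ENNReal.toReal_mono h2 hB
  rw [ENNReal.toReal_ofReal (Real.exp_pos _).le] at h3
  rw [lz, Real.le_log_iff_exp_le ((Real.exp_pos _).trans_le h3)]
  exact h3

noncomputable def v1 (ψ : ℝ → ℝ) (η c : ℝ) (a b : E) : ℝ := vv ψ a b + η * same cell a b + c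

lemma meas_v1 {ψ : ℝ → ℝ} (h : Measurable ψ) (η c : ℝ) : Measurable (Function.uncurry (v1 ψ η c)) :=
  ((meas_vv h).add ((meas_same meas_cell).const_mul η)).add_const c

lemma PE_v1 (μ : ℝ) (ψ : ℝ → ℝ) (η c : ℝ) (N : ℕ) (x : Fin N → E) :
    PE (fun _ => μ + hh) (v1 ψ η c) N x = En μ ψ N x + η * S N x + c * (N : ℝ) ^ 2 := by
  simp only [En, PE, Q, S, v1, Finset.sum_add_distrib, Finset.mul_sum]
  simp
  ring

lemma Good.mono {ψ ψ' : ℝ → ℝ} {α α' : ℝ} (h : Good ψ α) (hm : Measurable ψ') (h0 : ∀ r, 0 ≤ ψ' r)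
    (hle : ∀ r, ψ' r ≤ ψ r) (hα : α ≤ α') : Good ψ' α' :=
  ⟨hm, h0, fun N x => (Q_mono fun _ _ => hle _).trans ((h.bd N x).trans
    (mul_le_mul_of_nonneg_right (by linarith) (S_nonneg N x)))⟩

lemma Q_add (v w : E → E → ℝ) (N : ℕ) (x : Fin N → E) :
    Q (fun a b => v a b + w a b) N x = Q v N x + Q w N x := by
  simp [Q, Finset.sum_add_distrib]

lemma Q_mul (c : ℝ) (v : E → E → ℝ) (N : ℕ) (x : Fin N → E) :
    Q (fun a b => c * v a b) N x = c * Q v N x := by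
  simp [Q, Finset.mul_sum]

lemma Good.add {ψ ψ' : ℝ → ℝ} {α α' t : ℝ} (h : Good ψ α) (h' : Good ψ' α') (ht : 0 ≤ t) :
    Good (fun r => ψ r + t * ψ' r) (α + t * α') := by
  refine ⟨h.meas.add (h'.meas.const_mul t), fun r => add_nonneg (h.nonneg r)
    (mul_nonneg ht (h'.nonneg r)), fun N x => ?_⟩
  have : Q (dd fun r => ψ r + t * ψ' r) N x = Q (dd ψ) N x + t * Q (dd ψ') N x := by
    rw [← Q_mul, ← Q_add]; rfl
  rw [this]
  have h1 := h.bd N x
  have h2 := mul_le_mul_of_nonneg_left (h'.bd N x) ht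
  linarith

lemma pointwise_dec {ψ ψ1 ψ2 : ℝ → ℝ} {α η1 η t : ℝ} {D l : ℕ} (hl : 1 ≤ l)
    (hψ : ∀ r, ψ r = ψ1 r + ψ2 r) (g1 : Good ψ1 α) (g2 : Good ψ2 η1)
    (hD : ∀ r, (D : ℝ) < r → ψ1 r = 0) (ht : 0 ≤ t) (hη : 9261 * (η1 + 3 * D / l * α) / 2 ≤ η)
    (μ : ℝ) (N : ℕ) (x : Fin N → E) :
    ∃ σ ∈ Finset.Ico (0 : ℤ) l, En μ (fun r => ψ r + t * psi l r) N x ≤
      PE (fun _ => μ + hh)
        (fun a b => same (cb l σ) a b * v1 ψ η (9261 * t / 2 / (l : ℝ) ^ 3) a b) N x := by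
  obtain ⟨σ, hσ, h1⟩ := cross hl g1.nonneg hD N x
  refine ⟨σ, hσ, ?_⟩
  set c := 9261 * t / 2 / (l : ℝ) ^ 3 with hc
  have h2 : Q (vv fun r => ψ r + t * psi l r) N x ≤
      Q (fun a b => same (cb l σ) a b * v1 ψ η c a b
        + (1 / 2 * (dd ψ1 a b * (1 - same (cb l σ) a b))
        + (1 / 2 * dd ψ2 a b + ((-η) * same cell a b
        + (t / 2 * dd (psi l) a b + (-c) * same (cb l σ) a b))))) N x := by
    refine Q_mono fun i j => ?_
    have a1 := g2.nonneg (dist (x i) (x j))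
    have a2 := mul_nonneg hh_pos.le (rep_nonneg (dist (x i) (x j)))
    by_cases h : cb l σ (x i) = cb l σ (x j)
    · simp only [same, h, if_true, v1, vv, dd]
      linarith
    · have h' : cell (x i) ≠ cell (x j) := fun h' => h (by unfold cb; rw [h'])
      simp only [same, h, h', if_false, vv, dd, hψ]
      linarith
  simp only [Q_add, Q_mul] at h2
  have h3 := g1.bd N x
  have h4 := g2.bd N x
  have h5 := mul_le_mul_of_nonneg_left (kac hl σ N x) (by positivity : 0 ≤ t / 2)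
  have h6 : 0 ≤ 3 * (D : ℝ) / l := by positivity
  have h7 := mul_le_mul_of_nonneg_left h3 h6
  have h8 := mul_le_mul_of_nonneg_right hη (S_nonneg N x)
  have h9 : t / 2 * (9261 / (l : ℝ) ^ 3 * Q (same (cb l σ)) N x) = c * Q (same (cb l σ)) N x := by
    rw [hc]; ring
  simp only [En, PE]
  change _ ≤ _ + (_ + (_ + (-η * S N x + _))) at h2
  linarith

lemma fiber_bd {l : ℕ} (hl : 1 ≤ l) {ψ : ℝ → ℝ} (η c b : ℝ) (σ : ℤ) (q : G3) :
    Z (cb l σ ⁻¹' {q}) (PE (fun _ => b) (fun a b => same (cb l σ) a b * v1 ψ η c a b)) ≤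
      Z (box l) (PE (fun _ => b) (v1 ψ η c)) := by
  have hl' : (0 : ℤ) < l := by exact_mod_cast hl
  let e : E := WithLp.toLp 2 fun i => ((σ - q i * l : ℤ) : ℝ)
  rw [← Z_translate (box l) e]
  refine Z_mono (meas_cb l σ (measurableSet_singleton q)) ?_ fun N x hx => ?_
  · intro x hx i
    have h1 : (⌊x i⌋ + σ) / l = q i := congrFun (show cb l σ x = q from hx) i
    have h2 := Int.ediv_mul_le (⌊x i⌋ + σ) hl'.ne'
    have h3 := Int.lt_ediv_add_one_mul_self (⌊x i⌋ + σ) hl'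
    rw [h1] at h2 h3
    have h4 : ((q i * l : ℤ) : ℝ) ≤ (⌊x i⌋ + σ : ℤ) := by exact_mod_cast h2
    have h5 : ((⌊x i⌋ + σ + 1 : ℤ) : ℝ) ≤ ((q i + 1) * l : ℤ) := by exact_mod_cast h3
    have h6 := Int.floor_le (x i)
    have h7 := Int.lt_floor_add_one (x i)
    have : (x + e) i = x i + ((σ - q i * l : ℤ) : ℝ) := rfl
    rw [this]
    push_cast at *
    constructor <;> linarith
  · simp only [PE]
    refine add_le_add le_rfl (le_of_eq ?_)
    refine Finset.sum_congr rfl fun i _ => Finset.sum_congr rfl fun j _ => ?_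
    have h1 : cb l σ (x i) = cb l σ (x j) := (show _ = q from hx i).trans (show _ = q from hx j).symm
    have h2 : ∀ y : E, cell (y + e) = cell y + fun i => σ - q i * l := by
      intro y
      funext k
      exact Int.floor_add_intCast (y k) _
    simp only [same, h1, if_true, one_mul, v1, vv, dd, dist_add_right, h2, add_left_inj]

lemma decouple {ψ ψ1 ψ2 : ℝ → ℝ} {α η1 η t : ℝ} {D l : ℕ} (hl : 1 ≤ l) (hm : Measurable ψ)
    (hψ : ∀ r, ψ r = ψ1 r + ψ2 r) (g1 : Good ψ1 α) (g2 : Good ψ2 η1)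
    (hD : ∀ r, (D : ℝ) < r → ψ1 r = 0) (ht : 0 ≤ t) (hη : 9261 * (η1 + 3 * D / l * α) / 2 ≤ η)
    (μ : ℝ) {A : ℝ} (hA : 0 ≤ A)
    (hB : Bd (box l) (fun N x => En μ ψ N x + η * S N x + 9261 * t / 2 / (l : ℝ) ^ 3 * (N : ℝ) ^ 2) A)
    {L : ℝ} (hL : 0 ≤ L) :
    Bd (box L) (En μ fun r => ψ r + t * psi l r) (Real.log l + (L / l + 2) ^ 3 * A) := by
  have hl' : (0 : ℤ) < l := by exact_mod_cast hl
  have hlR : (0 : ℝ) < l := by exact_mod_cast hl
  set c := 9261 * t / 2 / (l : ℝ) ^ 3 with hc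
  have hmv : ∀ σ : ℤ, Measurable (Function.uncurry
      fun a b => same (cb l σ) a b * v1 ψ η c a b) :=
    fun σ => (meas_same (meas_cb l σ)).mul (meas_v1 hm η c)
  have h1 := Z_sum (Finset.Ico (0 : ℤ) l) (meas_box L) (H := En μ fun r => ψ r + t * psi l r)
    (fun _ => 1) (fun _ => zero_le_one)
    (fun σ => PE (fun _ => μ + hh) (fun a b => same (cb l σ) a b * v1 ψ η c a b))
    (fun σ => meas_PE measurable_const (hmv σ)) fun N x _ => by
      obtain ⟨σ, hσ, h⟩ := pointwise_dec hl hψ g1 g2 hD ht hη μ N x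
      simp only [one_mul]
      exact (Real.exp_le_exp.2 h).trans (Finset.single_le_sum
        (f := fun σ : ℤ => Real.exp (PE (fun _ => μ + hh)
          (fun a b => same (cb l σ) a b * v1 ψ η c a b) N x))
        (fun _ _ => (Real.exp_pos _).le) hσ)
  have hB' : Z (box l) (PE (fun _ => μ + hh) (v1 ψ η c)) ≤ ENNReal.ofReal (Real.exp A) := by
    have : PE (fun _ => μ + hh) (v1 ψ η c) =
        fun N x => En μ ψ N x + η * S N x + c * (N : ℝ) ^ 2 := by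
      funext N x; exact PE_v1 μ ψ η c N x
    rw [this]; exact hB
  let m : ℕ := ⌊L / l⌋₊ + 1
  let T : Finset G3 := Fintype.piFinset fun _ => Finset.Icc (0 : ℤ) m
  have hT : T.card = (m + 1) ^ 3 := by simp [T]
  have h2 : ∀ σ ∈ Finset.Ico (0 : ℤ) l, ENNReal.ofReal 1 *
      Z (box L) (PE (fun _ => μ + hh) (fun a b => same (cb l σ) a b * v1 ψ η c a b)) ≤
      ENNReal.ofReal (Real.exp ((L / l + 2) ^ 3 * A)) := by
    intro σ hσ
    rw [ENNReal.ofReal_one, one_mul]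
    have hσ' := Finset.mem_Ico.1 hσ
    have hsub : box L ⊆ cb l σ ⁻¹' T := by
      intro x hx
      simp only [T, Set.mem_preimage, Finset.mem_coe, Fintype.mem_piFinset, Finset.mem_Icc, cb, cell]
      intro i
      have a1 : 0 ≤ ⌊x i⌋ := Int.floor_nonneg.2 (hx i).1
      refine ⟨Int.ediv_nonneg (by omega) hl'.le, ?_⟩
      have a2 : L < m * l := by
        rw [← div_lt_iff₀ hlR]
        simpa [m] using Nat.lt_floor_add_one (L / l)
      have a3 : ⌊x i⌋ < (m : ℤ) * l := by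
        rw [Int.floor_lt]
        push_cast
        exact (hx i).2.trans_lt a2
      have a4 : (⌊x i⌋ + σ) / l < m + 1 := (Int.ediv_lt_iff_lt_mul hl').2 (by linarith)
      omega
    refine (Z_mono (meas_box L) hsub fun _ _ _ => le_rfl).trans ?_
    rw [Z_fibers (cb l σ) (fun q => meas_cb l σ (measurableSet_singleton q)) measurable_const
      (hmv σ) (fun a b h => by simp [same, h]) T]
    refine (Finset.prod_le_pow_card _ _ _ fun q _ => (fiber_bd hl η c _ σ q).trans hB').trans ?_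
    rw [← ENNReal.ofReal_pow (Real.exp_pos _).le, ← Real.exp_nat_mul, hT]
    refine ENNReal.ofReal_le_ofReal (Real.exp_le_exp.2 (mul_le_mul_of_nonneg_right ?_ hA))
    push_cast
    refine pow_le_pow_left₀ (by positivity) ?_ 3
    have := Nat.floor_le (div_nonneg hL hlR.le)
    simp only [m]
    push_cast
    linarith
  refine h1.trans ((Finset.sum_le_card_nsmul _ _ _ h2).trans (le_of_eq ?_))
  rw [Real.exp_add, Real.exp_log hlR, ENNReal.ofReal_mul hlR.le]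
  simp

lemma eventually_le {f : ℝ → ℝ} {l A c : ℝ} (hl : 0 < l)
    (h : ∀ L, 0 ≤ L → f L ≤ c + (L / l + 2) ^ 3 * A) {ε : ℝ} (hε : 0 < ε) :
    ∀ᶠ L in atTop, f L / L ^ 3 ≤ A / l ^ 3 + ε := by
  have h1 : Tendsto (fun L : ℝ => c * L⁻¹ ^ 3 + (l⁻¹ + 2 * L⁻¹) ^ 3 * A) atTop
      (𝓝 (c * 0 ^ 3 + (l⁻¹ + 2 * 0) ^ 3 * A)) :=
    ((tendsto_inv_atTop_zero.pow 3).const_mul c).add
      ((((tendsto_inv_atTop_zero.const_mul 2).const_add l⁻¹).pow 3).mul_const A)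
  have h2 : c * 0 ^ 3 + (l⁻¹ + 2 * 0) ^ 3 * A < A / l ^ 3 + ε := by
    have : c * 0 ^ 3 + (l⁻¹ + 2 * 0) ^ 3 * A = A / l ^ 3 := by field_simp; ring
    linarith
  filter_upwards [h1.eventually (gt_mem_nhds h2), eventually_gt_atTop 0] with L h3 hL
  refine le_trans ?_ h3.le
  rw [div_le_iff₀ (by positivity)]
  refine (h L hL.le).trans (le_of_eq ?_)
  field_simp

/-- admissible attractive parts -/
structure Nice (ψ : ℝ → ℝ) : Prop where
  good : Good ψ 500000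
  tail : ∀ η > 0, ∃ (D : ℕ) (ψ1 ψ2 : ℝ → ℝ), (∀ r, ψ r = ψ1 r + ψ2 r) ∧ Good ψ1 500000 ∧
    Good ψ2 η ∧ ∀ r, (D : ℝ) < r → ψ1 r = 0

lemma Nice.dec {ψ : ℝ → ℝ} (h : Nice ψ) {η : ℝ} (hη : 0 < η) :
    ∀ᶠ l : ℕ in atTop, ∀ (μ t A : ℝ), 0 ≤ t → 0 ≤ A →
      Bd (box l) (fun N x => En μ ψ N x + η * S N x + 9261 * t / 2 / (l : ℝ) ^ 3 * (N : ℝ) ^ 2) A →
      ∀ ε > 0, ∀ᶠ L in atTop,
        lz L (En μ fun r => ψ r + t * psi l r) / L ^ 3 ≤ A / (l : ℝ) ^ 3 + ε := by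
  obtain ⟨D, ψ1, ψ2, hψ, g1, g2, hD⟩ := h.tail (η / 9261) (by positivity)
  have h1 : Tendsto (fun l : ℕ => 3 * (D : ℝ) / l * 500000) atTop (𝓝 (0 * 500000)) :=
    (tendsto_const_div_atTop_nhds_zero_nat _).mul_const _
  filter_upwards [h1.eventually (gt_mem_nhds (show 0 * 500000 < η / 9261 by
    rw [zero_mul]; positivity)), eventually_ge_atTop 1] with l h2 hl μ t A ht hA hB ε hε
  refine eventually_le (f := fun L => lz L (En μ fun r => ψ r + t * psi l r)) (c := Real.log l)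
    (by exact_mod_cast hl) (fun L hL => ?_) hε
  exact lz_le (En_zero _ _) (decouple hl h.good.meas hψ g1 g2 hD ht (by linarith) μ hA hB hL)

lemma exists_lim {f : ℝ → ℝ} {B : ℝ} (hb : ∀ᶠ L in atTop, 0 ≤ f L ∧ f L ≤ B)
    (h : ∀ η > 0, ∀ᶠ L in atTop, ∀ᶠ L' in atTop, f L' ≤ f L + η) :
    ∃ p, Tendsto f atTop (𝓝 p) := by
  have b1 : IsBoundedUnder (· ≤ ·) atTop f := ⟨B, hb.mono fun _ h => h.2⟩
  have b2 : IsBoundedUnder (· ≥ ·) atTop f := ⟨0, hb.mono fun _ h => h.1⟩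
  refine ⟨limsup f atTop, tendsto_of_le_liminf_of_limsup_le ?_ le_rfl b1 b2⟩
  refine le_of_forall_pos_le_add fun η hη => ?_
  rw [← sub_le_iff_le_add]
  refine le_liminf_of_le b1.isCoboundedUnder_ge ?_
  filter_upwards [h η hη] with L hL
  rw [sub_le_iff_le_add]
  exact limsup_le_of_le b2.isCoboundedUnder_le hL

lemma Nice.exists_p {ψ : ℝ → ℝ} (h : Nice ψ) (μ : ℝ) :
    ∃ p, Tendsto (fun L => lz L (En μ ψ) / L ^ 3) atTop (𝓝 p) := by
  set P := Real.exp (μ + hh) with hP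
  have hP0 : 0 < P := Real.exp_pos _
  have hb : ∀ L, 0 < L → 0 ≤ lz L (En μ ψ) / L ^ 3 ∧ lz L (En μ ψ) / L ^ 3 ≤ P := by
    intro L hL
    have b := Bd_En h.good le_rfl μ hL.le
    exact ⟨div_nonneg (lz_nonneg (En_zero _ _) b) (by positivity),
      (div_le_iff₀ (by positivity)).2 (lz_le (En_zero _ _) b)⟩
  refine exists_lim (B := P) ((eventually_gt_atTop 0).mono hb) fun η hη => ?_
  set θ := min 1 (η / (3 * P)) with hθ
  have hθ0 : 0 < θ := lt_min one_pos (by positivity)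
  have hθP : θ * P ≤ η / 3 := by
    have := mul_le_mul_of_nonneg_right (min_le_right 1 (η / (3 * P))) hP0.le
    refine this.trans (le_of_eq ?_)
    field_simp
  have h1 := tendsto_nat_floor_atTop (α := ℝ) |>.eventually (h.dec hθ0)
  have h2 : Tendsto (fun L : ℝ => (L / ⌊L⌋₊) ^ 3) atTop (𝓝 (1 ^ 3)) := by
    have := tendsto_nat_floor_div_atTop (R := ℝ)
    have h3 := this.inv₀ one_ne_zero
    simp only [inv_div, inv_one] at h3
    exact h3.pow 3
  have h3 := h2.eventually (gt_mem_nhds (show (1 : ℝ) ^ 3 < 1 + η / (3 * P) by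
    rw [one_pow]; exact lt_add_of_pos_right _ (by positivity)))
  filter_upwards [h1, h3, eventually_ge_atTop 1] with L h4 h5 hL
  set l := ⌊L⌋₊ with hl
  have hl1 : (1 : ℝ) ≤ l := by exact_mod_cast Nat.floor_pos.2 hL
  have hlL : (l : ℝ) ≤ L := Nat.floor_le (by linarith)
  have bL := Bd_En h.good le_rfl μ (by linarith : 0 ≤ L)
  have bl : Bd (box l) (En μ ψ) (lz L (En μ ψ)) :=
    le_trans (Z_mono (meas_box l) (box_mono hlL) fun _ _ _ => le_rfl) (Bd_lz (En_zero _ _) bL)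
  have hz := lz_nonneg (En_zero μ ψ) bL
  have b2 := Bd_holder (meas_box l) (θ := θ) (c := 0)
    (H := fun N x => En μ ψ N x + θ * S N x + 9261 * 0 / 2 / (l : ℝ) ^ 3 * (N : ℝ) ^ 2)
    (meas_En μ h.good.meas) (meas_EnS μ h.good.meas) bl
    (Bd_stab h.good le_rfl μ (by linarith : (0 : ℝ) ≤ l)) hθ0.le (min_le_left _ _)
    (fun N x _ => le_of_eq (by ring))
  have b3 := b2.mono (B := lz L (En μ ψ) + θ * (P * (l : ℝ) ^ 3)) (by nlinarith)
  have h6 := h4 μ 0 _ le_rfl (by positivity) b3 (η / 3) (by positivity)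
  simp only [zero_mul, add_zero] at h6
  filter_upwards [h6] with L' h7
  refine h7.trans ?_
  have e1 : (lz L (En μ ψ) + θ * (P * (l : ℝ) ^ 3)) / (l : ℝ) ^ 3 =
      lz L (En μ ψ) / L ^ 3 * (L / l) ^ 3 + θ * P := by field_simp
  obtain ⟨c1, c2⟩ := hb L (by linarith)
  have e2 : lz L (En μ ψ) / L ^ 3 * (η / (3 * P)) ≤ η / 3 := by
    refine (mul_le_mul_of_nonneg_right c2 (by positivity)).trans (le_of_eq ?_)
    field_simp
  have e3 := mul_le_mul_of_nonneg_left h5.le c1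
  rw [e1]
  linarith

noncomputable def pr (μ : ℝ) (ψ : ℝ → ℝ) : ℝ := limUnder atTop fun L => lz L (En μ ψ) / L ^ 3

lemma Nice.tends {ψ : ℝ → ℝ} (h : Nice ψ) (μ : ℝ) :
    Tendsto (fun L => lz L (En μ ψ) / L ^ 3) atTop (𝓝 (pr μ ψ)) :=
  tendsto_nhds_limUnder (h.exists_p μ)

end Vale.Agent.P171
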